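import Vale.Agent.P345.SF

/-!
Arithmetic on naturals, integers and rationals is single-fold.
-/

namespace Vale.Agent.P345

open Cod

variable {α : Type} [Cod α]

section Nat

variable {f g : α → ℕ}

@[fun_prop] theorem SFF.add (hf : SFF f) (hg : SFF g) : SFF fun v => f v + g v :=
  SFF.comp (g := fun p : ℕ × ℕ => p.1 + p.2) (SFF.of_poly fun _ =>
    ⟨fun v => v (.inl ()) + v (.inr ()), by
      simpa using (PolyFn.var _).add (PolyFn.var _), fun _ => rfl⟩) (hf.prodMk hg)

@[fun_prop] theorem SFF.mul (hf : SFF f) (hg : SFF g) : SFF fun v => f v * g v :=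
  SFF.comp (g := fun p : ℕ × ℕ => p.1 * p.2) (SFF.of_poly fun _ =>
    ⟨fun v => v (.inl ()) * v (.inr ()), by
      simpa using (PolyFn.var _).mul (PolyFn.var _), fun _ => rfl⟩) (hf.prodMk hg)

theorem SFF.pow_const (hf : SFF f) (n : ℕ) : SFF fun v => f v ^ n := by
  induction n with
  | zero => simpa using SFF.const 1
  | succ n ih => simpa [pow_succ] using ih.mul hf

@[fun_prop] theorem SFF.sum {δ : Type} (s : Finset δ) {f : δ → α → ℕ}
    (hf : ∀ a, SFF (f a)) : SFF fun v => ∑ a ∈ s, f a v := by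
  classical
  induction s using Finset.induction_on with
  | empty => simpa using SFF.const 0
  | insert a s ha ih => simpa [Finset.sum_insert ha] using (hf a).add ih

theorem SF.le (hf : SFF f) (hg : SFF g) : SF fun v => f v ≤ g v :=
  (SF.ex (R := fun v (x : ℕ) => f v + x = g v) (SF.eq (by fun_prop) (by fun_prop))
    fun v x y hx hy => by omega).congr fun v => ⟨fun ⟨x, hx⟩ => by omega,
      fun h => ⟨g v - f v, by omega⟩⟩

theorem SF.lt (hf : SFF f) (hg : SFF g) : SF fun v => f v < g v :=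
  SF.le (hf.add (SFF.const 1)) hg

theorem SF.ne (hf : SFF f) (hg : SFF g) : SF fun v => f v ≠ g v :=
  ((SF.lt hf hg).or (SF.lt hg hf) fun v => by omega).congr fun v => by omega

@[fun_prop] theorem SFF.sub (hf : SFF f) (hg : SFF g) : SFF fun v => f v - g v :=
  (SF.or (S := fun z : α × ℕ => z.2 + g z.1 = f z.1) (T := fun z => z.2 = 0 ∧ f z.1 < g z.1)
    (SF.eq (by fun_prop) (by fun_prop))
    ((SF.eq (by fun_prop) (by fun_prop)).and (SF.lt (by fun_prop) (by fun_prop)))
    fun v => by omega).congr fun v => by beta_reduce; omega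

@[fun_prop] theorem SFF.max (hf : SFF f) (hg : SFF g) : SFF fun v => max (f v) (g v) :=
  (hf.add (hg.sub hf)).congr fun v => by omega

@[fun_prop] theorem SFF.div (hf : SFF f) (hg : SFF g) : SFF fun v => f v / g v := by
  refine (SF.or (S := fun z : α × ℕ => z.2 = 0 ∧ g z.1 = 0)
      (T := fun z => z.2 * g z.1 ≤ f z.1 ∧ f z.1 < (z.2 + 1) * g z.1)
      ((SF.eq (by fun_prop) (by fun_prop)).and (SF.eq (by fun_prop) (by fun_prop)))
      ((SF.le (by fun_prop) (by fun_prop)).and (SF.lt (by fun_prop) (by fun_prop)))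
      fun v h1 h2 => by simp [h1.2] at h2).congr fun z => ?_
  beta_reduce
  generalize f z.1 = a
  generalize g z.1 = b
  generalize z.2 = c
  rcases Nat.eq_zero_or_pos b with rfl | hb
  · simp
  · rw [eq_comm (a := c) (b := a / b), Nat.div_eq_iff hb]
    constructor
    · rintro (h | h)
      · omega
      · rw [add_mul] at h; omega
    · intro h
      right
      rw [add_mul]; omega

@[fun_prop] theorem SFF.mod (hf : SFF f) (hg : SFF g) : SFF fun v => f v % g v :=
  (hf.sub (hg.mul (hf.div hg))).congr fun _ => (Nat.mod_def _ _).symm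

theorem SF.dvd (hf : SFF f) (hg : SFF g) : SF fun v => f v ∣ g v :=
  (SF.eq (hg.mod hf) (SFF.const 0)).congr fun _ => (Nat.dvd_iff_mod_eq_zero ..).symm

theorem SF.coprime (hf : SFF f) (hg : SFF g) : SF fun v => Nat.Coprime (f v) (g v) := by
  refine (SF.or (S := fun v => g v = 0 ∧ f v = 1)
    (T := fun v => ∃ x : ℕ, x < g v ∧ f v * x % g v = 1 % g v)
    ((SF.eq hg (by fun_prop)).and (SF.eq hf (by fun_prop)))
    (SF.ex ((SF.lt (by fun_prop) (by fun_prop)).and (SF.eq (by fun_prop) (by fun_prop))) ?_)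
    fun v h1 ⟨x, h2, _⟩ => by omega).congr fun v => ?_
  · rintro v x y ⟨hx, hx'⟩ ⟨hy, hy'⟩
    have h1 : x * (f v * y) ≡ x * 1 [MOD g v] := Nat.ModEq.mul_left x hy'
    have h2 : y * (f v * x) ≡ y * 1 [MOD g v] := Nat.ModEq.mul_left y hx'
    rw [show x * (f v * y) = y * (f v * x) by ring] at h1
    have h3 := h1.symm.trans h2
    rw [mul_one, mul_one] at h3
    exact Nat.ModEq.eq_of_lt_of_lt h3 hx hy
  · constructor
    · rintro (⟨h1, h2⟩ | ⟨x, -, hx⟩)
      · rw [h1, h2]; simp
      · exact Nat.coprime_of_mul_modEq_one x hx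
    · intro h
      rcases Nat.eq_zero_or_pos (g v) with h0 | h0
      · left; rw [h0] at h; exact ⟨h0, by simpa using h⟩
      · right
        obtain ⟨x, hx⟩ := Nat.exists_mul_mod_eq_of_coprime 1 h h0.ne'
        exact ⟨x, hx⟩

@[fun_prop] theorem SFF.gcd (hf : SFF f) (hg : SFF g) : SFF fun v => Nat.gcd (f v) (g v) := by
  refine (SF.or (S := fun z : α × ℕ => z.2 = 0 ∧ f z.1 = 0 ∧ g z.1 = 0)
      (T := fun z => 0 < z.2 ∧ z.2 ∣ f z.1 ∧ z.2 ∣ g z.1 ∧
        Nat.Coprime (f z.1 / z.2) (g z.1 / z.2))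
      ((SF.eq (by fun_prop) (by fun_prop)).and ((SF.eq (by fun_prop) (by fun_prop)).and
        (SF.eq (by fun_prop) (by fun_prop))))
      ((SF.lt (by fun_prop) (by fun_prop)).and ((SF.dvd (by fun_prop) (by fun_prop)).and
        ((SF.dvd (by fun_prop) (by fun_prop)).and (SF.coprime (by fun_prop) (by fun_prop)))))
      fun v h1 h2 => by omega).congr fun z => ?_
  beta_reduce
  generalize f z.1 = a
  generalize g z.1 = b
  generalize z.2 = c
  constructor
  · rintro (⟨rfl, rfl, rfl⟩ | ⟨hc, ⟨a, rfl⟩, ⟨b, rfl⟩, h⟩)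
    · simp
    · rw [Nat.mul_div_cancel_left _ hc, Nat.mul_div_cancel_left _ hc] at h
      rw [Nat.gcd_mul_left, h.gcd_eq_one, mul_one]
  · rintro rfl
    rcases Nat.eq_zero_or_pos (Nat.gcd a b) with h | h
    · left; exact ⟨h, Nat.gcd_eq_zero_iff.1 h⟩
    · right
      exact ⟨h, Nat.gcd_dvd_left _ _, Nat.gcd_dvd_right _ _, Nat.coprime_div_gcd_div_gcd h⟩

end Nat

/-- A coding transported along an injective map with single-fold range. -/
@[instance_reducible] def Cod.ofInj {β : Type} (e : β → α) (he : Function.Injective e)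
    (hr : SF fun a => ∃ b, e b = a) : Cod β where
  idx := idx α
  fin := inferInstance
  enc b := enc (e b)
  inj := inj.comp he
  rng := SF0.congr hr fun v => ⟨fun ⟨_, h, b, hb⟩ => ⟨b, hb ▸ h⟩, fun ⟨b, h⟩ => ⟨_, h, b, rfl⟩⟩

theorem SFF.ofInj_out {β : Type} (e : β → α) (he : Function.Injective e)
    (hr : SF fun a => ∃ b, e b = a) : @SFF β α (Cod.ofInj e he hr) _ e :=
  @SFF.of_coord β α (Cod.ofInj e he hr) _ e (fun i => i) fun _ _ => rfl

theorem SFF.ofInj_in {β γ : Type} [Cod γ] (e : β → α) (he : Function.Injective e)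
    (hr : SF fun a => ∃ b, e b = a) {f : γ → β} (hf : SFF fun c => e (f c)) :
    @SFF γ β _ (Cod.ofInj e he hr) f := by
  letI := Cod.ofInj e he hr
  exact (SF.comap hf (fun q : γ × β => (q.1, e q.2)) (fun i => i)
    fun _ i => by rcases i with i | i <;> rfl).congr fun q => he.eq_iff

theorem int_inj : Function.Injective fun z : ℤ => (z.toNat, (-z).toNat) := by
  intro a b h
  simp only [Prod.mk.injEq] at h
  omega

theorem int_rng : SF fun a : ℕ × ℕ => ∃ z : ℤ, (z.toNat, (-z).toNat) = a :=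
  (SF.eq (f := fun a : ℕ × ℕ => a.1 * a.2) (g := fun _ => 0) (by fun_prop) (by fun_prop)).congr
    fun a => by
      rw [mul_eq_zero]
      constructor
      · intro h
        exact ⟨a.1 - a.2, Prod.ext (by simp only; omega) (by simp only; omega)⟩
      · rintro ⟨z, rfl⟩
        simp only; omega

instance : Cod ℤ := Cod.ofInj _ int_inj int_rng

section Int

variable {f g : α → ℤ}

@[fun_prop] theorem SFF.toNat (hf : SFF f) : SFF fun v => (f v).toNat :=
  ((SFF.ofInj_out _ int_inj int_rng).comp hf).fst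

theorem SFF.neg_toNat (hf : SFF f) : SFF fun v => (-f v).toNat :=
  ((SFF.ofInj_out _ int_inj int_rng).comp hf).snd

theorem SFF.subNat {f g : α → ℕ} (hf : SFF f) (hg : SFF g) :
    SFF fun v => (f v : ℤ) - (g v : ℤ) :=
  SFF.ofInj_in _ int_inj int_rng (((hf.sub hg).prodMk (hg.sub hf)).congr fun v =>
    Prod.ext (by simp only; omega) (by simp only; omega))

@[fun_prop] theorem SFF.natCast_int {f : α → ℕ} (hf : SFF f) : SFF fun v => (f v : ℤ) :=
  (hf.subNat (SFF.const 0)).congr fun _ => by simp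

@[fun_prop] theorem SFF.natAbs (hf : SFF f) : SFF fun v => (f v).natAbs :=
  (hf.toNat.add hf.neg_toNat).congr fun v => by omega

@[fun_prop] theorem SFF.add_int (hf : SFF f) (hg : SFF g) : SFF fun v => f v + g v :=
  ((hf.toNat.add hg.toNat).subNat (hf.neg_toNat.add hg.neg_toNat)).congr fun v => by omega

@[fun_prop] theorem SFF.neg_int (hf : SFF f) : SFF fun v => -f v :=
  (hf.neg_toNat.subNat hf.toNat).congr fun v => by omega

@[fun_prop] theorem SFF.sub_int (hf : SFF f) (hg : SFF g) : SFF fun v => f v - g v :=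
  (hf.add_int hg.neg_int).congr fun v => by ring

@[fun_prop] theorem SFF.mul_int (hf : SFF f) (hg : SFF g) : SFF fun v => f v * g v :=
  (((hf.toNat.mul hg.toNat).add (hf.neg_toNat.mul hg.neg_toNat)).subNat
    ((hf.toNat.mul hg.neg_toNat).add (hf.neg_toNat.mul hg.toNat))).congr fun v => by
    have h1 := Int.toNat_sub_toNat_neg (f v)
    have h2 := Int.toNat_sub_toNat_neg (g v)
    push_cast
    conv_rhs => rw [← h1, ← h2]
    ring

end Int

theorem SFF.polyFn {ι : Type} [Fintype ι] {f : (ι → ℕ) → ℤ} (hf : PolyFn f) : SFF f := by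
  obtain ⟨P, hP⟩ := hf
  refine SFF.congr ?_ fun v => (hP v).symm
  clear hP
  induction P using MvPolynomial.induction_on with
  | C a => simpa using SFF.const a
  | add p q hp hq => simpa using hp.add_int hq
  | mul_X p i hp => simpa using hp.mul_int (SFF.apply i).natCast_int

theorem rat_inj : Function.Injective fun q : ℚ => (q.num, q.den) := by
  intro a b h
  simp only [Prod.mk.injEq] at h
  exact Rat.ext h.1 h.2

theorem rat_rng : SF fun a : ℤ × ℕ => ∃ q : ℚ, (q.num, q.den) = a :=
  (SF.and (S := fun a : ℤ × ℕ => a.2 ≠ 0) (T := fun a => a.1.natAbs.Coprime a.2)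
    (SF.ne (by fun_prop) (by fun_prop)) (SF.coprime (by fun_prop) (by fun_prop))).congr
    fun a => ⟨fun h => ⟨⟨a.1, a.2, h.1, h.2⟩, rfl⟩, by
      rintro ⟨q, rfl⟩
      exact ⟨q.den_nz, q.reduced⟩⟩

instance : Cod ℚ := Cod.ofInj _ rat_inj rat_rng

section Rat

variable {f g : α → ℚ}

@[fun_prop] theorem SFF.num (hf : SFF f) : SFF fun v => (f v).num :=
  ((SFF.ofInj_out _ rat_inj rat_rng).comp hf).fst

@[fun_prop] theorem SFF.den (hf : SFF f) : SFF fun v => (f v).den :=
  ((SFF.ofInj_out _ rat_inj rat_rng).comp hf).snd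

theorem SFF.of_frac {a b : α → ℤ} (ha : SFF a) (hb : SFF b) (hb0 : ∀ v, b v ≠ 0)
    (h : ∀ v, f v * b v = a v) : SFF f := by
  refine (SF.eq (f := fun p : α × ℚ => p.2.num * b p.1) (g := fun p => a p.1 * (p.2.den : ℤ))
    (by fun_prop) (by fun_prop)).congr fun p => ?_
  have h1 : (b p.1 : ℚ) ≠ 0 := by exact_mod_cast hb0 p.1
  have h2 : (p.2.den : ℚ) ≠ 0 := by exact_mod_cast p.2.den_nz
  have h3 := Rat.num_div_den p.2
  rw [← Int.cast_inj (α := ℚ)]
  push_cast
  rw [← h, div_eq_iff h2] at *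
  rw [h3]
  constructor
  · intro h4
    apply mul_right_cancel₀ (mul_ne_zero h1 h2)
    linear_combination h4
  · intro h4
    rw [h4]; ring

@[fun_prop] theorem SFF.intCast_rat {a : α → ℤ} (ha : SFF a) : SFF fun v => (a v : ℚ) :=
  SFF.of_frac ha (SFF.const 1) (fun _ => one_ne_zero) fun _ => by simp

@[fun_prop] theorem SFF.natCast_rat {a : α → ℕ} (ha : SFF a) : SFF fun v => (a v : ℚ) :=
  ha.natCast_int.intCast_rat.congr fun _ => by simp

@[fun_prop] theorem SFF.add_rat (hf : SFF f) (hg : SFF g) : SFF fun v => f v + g v :=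
  SFF.of_frac (a := fun v => (f v).num * (g v).den + (g v).num * (f v).den)
    (b := fun v => (f v).den * (g v).den) (by fun_prop) (by fun_prop)
    (fun v => by have := (f v).den_nz; have := (g v).den_nz; positivity) fun v => by
      push_cast
      rw [← Rat.mul_den_eq_num, ← Rat.mul_den_eq_num]; ring

@[fun_prop] theorem SFF.mul_rat (hf : SFF f) (hg : SFF g) : SFF fun v => f v * g v :=
  SFF.of_frac (a := fun v => (f v).num * (g v).num)
    (b := fun v => (f v).den * (g v).den) (by fun_prop) (by fun_prop)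
    (fun v => by have := (f v).den_nz; have := (g v).den_nz; positivity) fun v => by
      push_cast
      rw [← Rat.mul_den_eq_num, ← Rat.mul_den_eq_num]; ring

@[fun_prop] theorem SFF.sub_rat (hf : SFF f) (hg : SFF g) : SFF fun v => f v - g v :=
  (hf.add_rat ((SFF.const (-1)).mul_rat hg)).congr fun v => by ring

theorem SF.ne_rat (hf : SFF f) (hg : SFF g) : SF fun v => f v ≠ g v :=
  (SF.ne (hf.sub_rat hg).num.natAbs (SFF.const 0)).congr fun v => by
    simp [sub_eq_zero]

theorem SF.pos_rat (hf : SFF f) : SF fun v => 0 < f v :=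
  (SF.lt (SFF.const 0) hf.num.toNat).congr fun v => by simp

@[fun_prop] theorem SFF.inv_rat (hf : SFF f) : SFF fun v => (f v)⁻¹ :=
  (SF.or (S := fun p : α × ℚ => f p.1 = 0 ∧ p.2 = 0) (T := fun p => f p.1 * p.2 = 1)
    ((SF.eq (by fun_prop) (by fun_prop)).and (SF.eq (by fun_prop) (by fun_prop)))
    (SF.eq (by fun_prop) (by fun_prop)) fun v h1 h2 => by simp [h1.1] at h2).congr fun p => by
      beta_reduce
      constructor
      · rintro (⟨h1, h2⟩ | h)
        · simp [h1, h2]
        · exact (inv_eq_of_mul_eq_one_right h).symm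
      · intro h
        by_cases h0 : f p.1 = 0
        · left; simp [h, h0]
        · right; rw [h, mul_inv_cancel₀ h0]

@[fun_prop] theorem SFF.div_rat (hf : SFF f) (hg : SFF g) : SFF fun v => f v / g v :=
  (hf.mul_rat hg.inv_rat).congr fun _ => (div_eq_mul_inv _ _).symm

end Rat

end Vale.Agent.P345
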