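import Vale.Agent.P345.Pow

/-!
Single-fold predicates are closed under bounded universal quantification.
-/

namespace Vale.Agent.P345

open Finset

theorem PolyFn.bound {ι : Type} {f : (ι → ℕ) → ℤ} (hf : PolyFn f) :
    ∃ D : ℕ, ∀ (s : ℕ) (v : ι → ℕ), (∀ i, v i ≤ s) → (f v).natAbs ≤ (s + 2) ^ D := by
  obtain ⟨P, hP⟩ := hf
  simp only [hP]
  clear hP
  induction P using MvPolynomial.induction_on with
  | C a =>
    refine ⟨a.natAbs, fun s v _ => ?_⟩
    rw [MvPolynomial.eval_C]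
    exact Nat.lt_two_pow_self.le.trans (Nat.pow_le_pow_left (by omega) _)
  | add p q hp hq =>
    obtain ⟨D, hD⟩ := hp
    obtain ⟨E, hE⟩ := hq
    refine ⟨D + E + 1, fun s v hv => ?_⟩
    rw [map_add]
    have h1 := (hD s v hv).trans (Nat.pow_le_pow_right (by omega) (show D ≤ D + E by omega))
    have h2 := (hE s v hv).trans (Nat.pow_le_pow_right (by omega) (show E ≤ D + E by omega))
    have h3 := Int.natAbs_add_le (MvPolynomial.eval (fun i => (v i : ℤ)) p)
      (MvPolynomial.eval (fun i => (v i : ℤ)) q)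
    rw [pow_succ]
    have : (s + 2) ^ (D + E) * 2 ≤ (s + 2) ^ (D + E) * (s + 2) := Nat.mul_le_mul_left _ (by omega)
    omega
  | mul_X p i hp =>
    obtain ⟨D, hD⟩ := hp
    refine ⟨D + 1, fun s v hv => ?_⟩
    rw [map_mul, MvPolynomial.eval_X, Int.natAbs_mul, pow_succ, Int.natAbs_natCast]
    exact Nat.mul_le_mul (hD s v hv) ((hv i).trans (by omega))

theorem PolyFn.modEq {ι : Type} {f : (ι → ℕ) → ℤ} (hf : PolyFn f) (m : ℕ) (v v' : ι → ℕ)
    (h : ∀ i, v i ≡ v' i [MOD m]) : f v ≡ f v' [ZMOD m] := by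
  obtain ⟨P, hP⟩ := hf
  simp only [hP]
  clear hP
  induction P using MvPolynomial.induction_on with
  | C a => simp
  | add p q hp hq => simpa using hp.add hq
  | mul_X p i hp => simpa using hp.mul (Int.natCast_modEq_iff.2 (h i))

theorem exists_modEq_of_dvd_choose {p a u : ℕ} (hp : p.Prime) (h : p ∣ a.choose u) :
    ∃ l < u, a ≡ l [MOD p] := by
  by_cases ha : a < u
  · exact ⟨a, ha, rfl⟩
  have h1 : p ∣ a.descFactorial u := by
    rw [Nat.descFactorial_eq_factorial_mul_choose]; exact h.mul_left _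
  rw [Nat.descFactorial_eq_prod_range] at h1
  obtain ⟨i, hi, h2⟩ := hp.prime.exists_mem_finset_dvd h1
  rw [mem_range] at hi
  exact ⟨i, hi, ((Nat.modEq_iff_dvd' (by omega)).2 h2).symm⟩

theorem dvd_choose_of_modEq {m a y u : ℕ} (hm : ∀ p, p.Prime → p ∣ m → u < p) (hy : y < u)
    (h : a ≡ y [MOD m]) : m ∣ a.choose u := by
  by_cases ha : a < u
  · rw [Nat.choose_eq_zero_of_lt ha]; exact dvd_zero _
  have h1 : m ∣ a.descFactorial u := by
    rw [Nat.descFactorial_eq_prod_range]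
    exact ((Nat.modEq_iff_dvd' (by omega)).1 h.symm).trans
      (dvd_prod_of_mem (fun i => a - i) (mem_range.2 hy))
  rw [Nat.descFactorial_eq_factorial_mul_choose] at h1
  refine Nat.Coprime.dvd_of_dvd_mul_left (Nat.coprime_of_dvd fun p hp h2 h3 => ?_) h1
  have := hm p hp h2
  have := hp.dvd_factorial.1 h3
  omega

theorem modEq_of_dvd_choose {m a y u : ℕ} (hm1 : 1 < m) (hm : ∀ p, p.Prime → p ∣ m → u < p)
    (hy : y < u) (h : m ∣ a.choose u) (hp : ∀ p, p.Prime → p ∣ m → a ≡ y [MOD p]) :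
    a ≡ y [MOD m] := by
  by_cases ha : a < u
  · have pp := Nat.minFac_prime hm1.ne'
    have := hm _ pp (Nat.minFac_dvd m)
    rw [Nat.ModEq.eq_of_lt_of_lt (hp _ pp (Nat.minFac_dvd m)) (by omega) (by omega)]
  have h1 : m ∣ a.descFactorial u := by
    rw [Nat.descFactorial_eq_factorial_mul_choose]; exact h.mul_left _
  rw [Nat.descFactorial_eq_prod_range, ← mul_prod_erase _ _ (mem_range.2 hy)] at h1
  refine ((Nat.modEq_iff_dvd' (by omega)).2 (Nat.Coprime.dvd_of_dvd_mul_right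
    (Nat.coprime_prod_right_iff.2 fun i hi => Nat.coprime_of_dvd fun p pp h2 h3 => ?_) h1)).symm
  rw [mem_erase, mem_range] at hi
  have h4 := hm p pp h2
  exact hi.1 (Nat.ModEq.eq_of_lt_of_lt
    (((Nat.modEq_iff_dvd' (by omega)).2 h3).trans (hp p pp h2)) (by omega) (by omega))

/-- The moduli. -/
def md (Q k : ℕ) : ℕ := Q.factorial * Q.factorial / (k + 1) - 1

theorem md_spec {Q k : ℕ} (hk : k < Q) :
    ∃ e, 0 < e ∧ Q.factorial = (k + 1) * e ∧ md Q k + 1 = Q.factorial * e := by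
  obtain ⟨e, he⟩ := Nat.dvd_factorial (Nat.succ_pos k) hk
  have h0 := Q.factorial_pos
  have he0 : 0 < e := Nat.pos_of_ne_zero (by rintro rfl; simp at he; omega)
  refine ⟨e, he0, he, ?_⟩
  have : Q.factorial * Q.factorial / (k + 1) = Q.factorial * e := by
    conv_lhs => rw [he, mul_left_comm, Nat.mul_div_cancel_left _ (Nat.succ_pos k), ← he]
  have := Nat.mul_pos h0 he0
  unfold md
  omega

theorem md_mul {Q k : ℕ} (hk : k < Q) :
    (k + 1) * md Q k = Q.factorial * Q.factorial - 1 - k := by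
  obtain ⟨e, -, h1, h2⟩ := md_spec hk
  have : (k + 1) * (md Q k + 1) = Q.factorial * Q.factorial := by
    rw [h2, mul_left_comm, ← h1]
  rw [mul_add] at this
  omega

theorem lt_fact_sq {Q k : ℕ} (hk : k < Q) : k + 1 ≤ Q.factorial * Q.factorial :=
  (hk.trans_le (Nat.self_le_factorial Q)).trans_le (Nat.le_mul_self _)

theorem md_prime {Q k p : ℕ} (hk : k < Q) (hp : p.Prime) (h : p ∣ md Q k) : Q < p := by
  obtain ⟨e, -, -, h2⟩ := md_spec hk
  by_contra hc
  have h3 : p ∣ md Q k + 1 := h2 ▸ (hp.dvd_factorial.2 (by omega)).mul_right e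
  exact hp.one_lt.ne' (Nat.dvd_one.1 ((Nat.dvd_add_right h).1 h3))

theorem one_lt_md {Q k : ℕ} (hk : k < Q) (hQ : 3 ≤ Q) : 1 < md Q k := by
  obtain ⟨e, he, -, h2⟩ := md_spec hk
  have := Nat.self_le_factorial Q
  nlinarith

theorem md_modEq {Q k : ℕ} (hk : k < Q) : Q.factorial * Q.factorial - 1 ≡ k [MOD md Q k] := by
  have := lt_fact_sq hk
  exact ((Nat.modEq_iff_dvd' (by omega)).2 (md_mul hk ▸ dvd_mul_left _ _)).symm

theorem md_coprime {Q n : ℕ} (hn : n ≤ Q) :
    Set.Pairwise (range n : Set ℕ) (Function.onFun Nat.Coprime (md Q)) := by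
  intro k hk l hl hkl
  rw [mem_coe, mem_range] at hk hl
  refine Nat.coprime_of_dvd fun p pp h1 h2 => hkl ?_
  have := md_prime (by omega) pp h1
  exact Nat.ModEq.eq_of_lt_of_lt (((md_modEq (by omega)).of_dvd h1).symm.trans
    ((md_modEq (by omega)).of_dvd h2)) (by omega) (by omega)

theorem md_prod {Q n : ℕ} (hn : n ≤ Q) :
    (Q.factorial * Q.factorial - 1).choose n = ∏ k ∈ range n, md Q k := by
  apply Nat.eq_of_mul_eq_mul_left n.factorial_pos
  rw [← Nat.descFactorial_eq_factorial_mul_choose, Nat.descFactorial_eq_prod_range,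
    ← prod_range_add_one_eq_factorial n, ← prod_mul_distrib]
  exact prod_congr rfl fun k hk => (md_mul (by have := mem_range.1 hk; omega)).symm

theorem md_prod_dvd {Q n : ℕ} (hn : n ≤ Q) {z : ℤ} (h : ∀ k < n, (md Q k : ℤ) ∣ z) :
    (((Q.factorial * Q.factorial - 1).choose n : ℕ) : ℤ) ∣ z := by
  rw [md_prod hn, Nat.cast_prod]
  exact prod_dvd_of_coprime (fun k hk l hl hkl =>
    Nat.isCoprime_iff_coprime.2 (md_coprime hn hk hl hkl)) fun k hk => h k (mem_range.1 hk)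

theorem md_dvd {Q n k : ℕ} (hn : n ≤ Q) (hk : k < n) :
    md Q k ∣ (Q.factorial * Q.factorial - 1).choose n := by
  rw [md_prod hn]; exact dvd_prod_of_mem _ (mem_range.2 hk)

section

variable {σ : Type} [Fintype σ] (G : ℕ → (σ → ℕ) → ℤ) (n : ℕ)

/-- The conditions replacing a bounded universal quantifier. -/
def Cond (Q u : ℕ) (A : σ → ℕ) : Prop :=
  (∀ j, A j < (Q.factorial * Q.factorial - 1).choose n) ∧
  (∀ j, (Q.factorial * Q.factorial - 1).choose n ∣ (A j).choose (u + 1)) ∧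
  (Q.factorial * Q.factorial - 1).choose n ∣ (G (Q.factorial * Q.factorial - 1) A).natAbs ∧
  (u = 0 ∨ (u ≠ 0 ∧ ∑ j, (A j).choose u % (Q.factorial * Q.factorial - 1).choose n ≠ 0))

/-- The hypotheses on the polynomial and on the bound. -/
structure Hyp (Qf : ℕ → ℕ) : Prop where
  cong : ∀ (m k k' : ℕ) y y', k ≡ k' [MOD m] → (∀ j, y j ≡ y' j [MOD m]) → G k y ≡ G k' y' [ZMOD m]
  bd : ∀ u, ∀ k < n, ∀ y, (∀ j, y j ≤ u) → (G k y).natAbs ≤ Qf u
  big : ∀ u, u + n + 3 ≤ Qf u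
  uniq : ∀ k y y', G k y = 0 → G k y' = 0 → y = y'

variable {G n} {Qf : ℕ → ℕ}

theorem Hyp.sound (H : Hyp G n Qf) {u : ℕ} {A : σ → ℕ} (h : Cond G n (Qf u) u A) {k : ℕ}
    (hk : k < n) : ∃ y, G k y = 0 ∧ ∀ j, y j ≤ u ∧ A j ≡ y j [MOD md (Qf u) k] := by
  obtain ⟨-, h2, h3, -⟩ := h
  have hb := H.big u
  have hd := md_dvd (Q := Qf u) (by omega) hk
  have key : ∀ p, p.Prime → p ∣ md (Qf u) k →
      ∃ y, G k y = 0 ∧ ∀ j, y j < u + 1 ∧ A j ≡ y j [MOD p] := by
    intro p pp hp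
    choose y hy using fun j => exists_modEq_of_dvd_choose pp (hp.trans (hd.trans (h2 j)))
    refine ⟨y, ?_, hy⟩
    have a1 := H.cong p _ _ A y ((md_modEq (by omega)).of_dvd hp) fun j => (hy j).2
    have a2 : (p : ℤ) ∣ G k y :=
      a1.dvd_iff.1 (Int.natCast_dvd.2 (hp.trans (hd.trans h3)))
    have a3 := H.bd u k hk y fun j => by have := (hy j).1; omega
    have a4 := md_prime (by omega) pp hp
    exact Int.natAbs_eq_zero.1 (Nat.eq_zero_of_dvd_of_lt (Int.natCast_dvd.1 a2) (by omega))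
  have h1 := one_lt_md (Q := Qf u) (k := k) (by omega) (by omega)
  obtain ⟨y, hy0, hy⟩ := key _ (Nat.minFac_prime h1.ne') (Nat.minFac_dvd _)
  refine ⟨y, hy0, fun j => ⟨by have := (hy j).1; omega, modEq_of_dvd_choose h1
    (fun p pp hp => by have := md_prime (by omega) pp hp; omega) (hy j).1 (hd.trans (h2 j))
    fun p pp hp => ?_⟩⟩
  obtain ⟨y', hy0', hy'⟩ := key p pp hp
  rw [H.uniq k y y' hy0 hy0']
  exact (hy' j).2

theorem Hyp.le (H : Hyp G n Qf) {u u' : ℕ} {A A' : σ → ℕ} (h : Cond G n (Qf u) u A)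
    (h' : Cond G n (Qf u') u' A') : u ≤ u' := by
  have hb := H.big u
  rcases h.2.2.2 with h0 | ⟨-, h0⟩
  · omega
  by_contra hlt
  refine h0 (sum_eq_zero fun j _ => Nat.mod_eq_zero_of_dvd (Int.natCast_dvd_natCast.1
    (md_prod_dvd (by omega) fun k hk => Int.natCast_dvd_natCast.2 ?_)))
  obtain ⟨y, hy0, hy⟩ := H.sound h hk
  obtain ⟨y', hy0', hy'⟩ := H.sound h' hk
  obtain rfl := H.uniq k y y' hy0 hy0'
  exact dvd_choose_of_modEq (fun p pp hp => by have := md_prime (by omega) pp hp; omega)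
    (by have := (hy' j).1; omega) (hy j).2

theorem Hyp.unique (H : Hyp G n Qf) {x x' : ℕ × (σ → ℕ)} (h : Cond G n (Qf x.1) x.1 x.2)
    (h' : Cond G n (Qf x'.1) x'.1 x'.2) : x = x' := by
  obtain ⟨u, A⟩ := x
  obtain ⟨u', A'⟩ := x'
  obtain rfl : u = u' := le_antisymm (H.le h h') (H.le h' h)
  have hb := H.big u
  dsimp only at h h'
  refine Prod.ext rfl (funext fun j => Nat.ModEq.eq_of_lt_of_lt
    (Nat.modEq_iff_dvd.2 (md_prod_dvd (Q := Qf u) (by omega) fun k hk => ?_)) (h.1 j) (h'.1 j))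
  obtain ⟨y, hy0, hy⟩ := H.sound h hk
  obtain ⟨y', hy0', hy'⟩ := H.sound h' hk
  obtain rfl := H.uniq k y y' hy0 hy0'
  exact Nat.modEq_iff_dvd.1 ((hy j).2.trans (hy' j).2.symm)

theorem Hyp.complete (H : Hyp G n Qf) (h : ∀ k < n, ∃ y, G k y = 0) :
    ∃ x : ℕ × (σ → ℕ), Cond G n (Qf x.1) x.1 x.2 := by
  classical
  choose! Y hY using h
  obtain ⟨u, hu⟩ : ∃ u, u = (range n ×ˢ (univ : Finset σ)).sup fun p => Y p.1 p.2 := ⟨_, rfl⟩
  have hle : ∀ k < n, ∀ j, Y k j ≤ u := fun k hk j =>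
    hu ▸ le_sup (f := fun p : ℕ × σ => Y p.1 p.2) (b := (k, j)) (by simpa using hk)
  have hb := H.big u
  have hn : n ≤ Qf u := by omega
  have hpr : ∀ k < n, ∀ p, p.Prime → p ∣ md (Qf u) k → u + 1 < p := fun k hk p pp hp => by
    have := md_prime (by omega) pp hp; omega
  have hA : ∀ j, ∃ a < ((Qf u).factorial * (Qf u).factorial - 1).choose n,
      ∀ k < n, a ≡ Y k j [MOD md (Qf u) k] := by
    intro j
    have h0 : ∀ k ∈ range n, md (Qf u) k ≠ 0 := fun k hk => by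
      have := mem_range.1 hk
      have := one_lt_md (Q := Qf u) (k := k) (by omega) (by omega)
      omega
    refine ⟨Nat.chineseRemainderOfFinset (fun k => Y k j) (md (Qf u)) (range n) h0 (md_coprime hn),
      ?_, fun k hk => (Nat.chineseRemainderOfFinset (fun k => Y k j) (md (Qf u)) (range n) h0
        (md_coprime hn)).2 k (mem_range.2 hk)⟩
    rw [md_prod hn]
    exact Nat.chineseRemainderOfFinset_lt_prod _ _ h0 _
  choose A hA1 hA2 using hA
  refine ⟨(u, A), hA1, fun j => Int.natCast_dvd_natCast.1 (md_prod_dvd hn fun k hk =>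
    Int.natCast_dvd_natCast.2 (dvd_choose_of_modEq (hpr k hk) (Nat.lt_succ_of_le (hle k hk j))
      (hA2 j k hk))), Int.natCast_dvd.1 (md_prod_dvd hn fun k hk => ?_), ?_⟩
  · have := H.cong _ _ _ A (Y k) (md_modEq (Q := Qf u) (by omega)) fun j => hA2 j k hk
    rw [hY k hk] at this
    exact (Int.modEq_zero_iff_dvd).1 this
  · rcases Nat.eq_zero_or_pos u with h0 | h0
    · exact Or.inl h0
    refine Or.inr ⟨h0.ne', fun hs => ?_⟩
    have hne : (range n ×ˢ (univ : Finset σ)).Nonempty := by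
      rw [nonempty_iff_ne_empty]
      intro he
      rw [he, sup_empty] at hu
      exact h0.ne' hu
    obtain ⟨⟨k, j⟩, hkj, e⟩ := exists_mem_eq_sup _ hne fun p : ℕ × σ => Y p.1 p.2
    have hk : k < n := by simpa using hkj
    have h1 := one_lt_md (Q := Qf u) (k := k) (by omega) (by omega)
    have pp := Nat.minFac_prime h1.ne'
    have h2 := Nat.dvd_of_mod_eq_zero (sum_eq_zero_iff.1 hs j (mem_univ j))
    obtain ⟨l, hl, h3⟩ := exists_modEq_of_dvd_choose pp
      ((Nat.minFac_dvd _).trans ((md_dvd hn hk).trans h2))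
    have h4 := hpr k hk _ pp (Nat.minFac_dvd _)
    have h5 := h3.symm.trans ((hA2 j k hk).of_dvd (Nat.minFac_dvd _))
    have h6 : Y k j = u := (hu.trans e).symm
    rw [h6] at h5
    have := Nat.ModEq.eq_of_lt_of_lt h5 (by omega) (by omega)
    omega

end

open Cod in
theorem SF.ball {α : Type} [Cod α] {R : α → ℕ → Prop} (h : SF fun p : α × ℕ => R p.1 p.2) :
    SF fun p : α × ℕ => ∀ i < p.2, R p.1 i := by
  obtain ⟨σ, _, f, hf, h1, h2⟩ := h
  obtain ⟨D, hD⟩ := hf.bound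
  let G : α → ℕ → (σ → ℕ) → ℤ := fun a k y => f (enc (a, k)) y
  let Qf : α × ℕ → ℕ → ℕ := fun p u =>
    (∑ i, enc p.1 i + p.2 + u + 2) ^ D + (u + p.2 + 3)
  have H : ∀ p : α × ℕ, Hyp (G p.1) p.2 (Qf p) := fun p =>
    { cong := fun m k k' y y' hk hy => hf.modEq m (Sum.elim (enc (p.1, k)) y)
        (Sum.elim (enc (p.1, k')) y') (by
          rintro ((i | i) | i)
          · rfl
          · exact hk
          · exact hy i)
      bd := fun u k hk y hy => (hD (∑ i, enc p.1 i + p.2 + u) (Sum.elim (enc (p.1, k)) y) (by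
          rintro ((i | i) | i)
          · exact (single_le_sum (f := enc p.1) (fun _ _ => Nat.zero_le _) (mem_univ i)).trans
              (by omega)
          · exact hk.le.trans (by omega)
          · exact (hy i).trans (by omega))).trans (Nat.le_add_right _ _)
      big := fun u => Nat.le_add_left _ _
      uniq := fun k => h2 _ }
  have henc : ∀ i, SFF fun a : α => enc a i := fun i =>
    SFF.of_coord (fun _ => i) fun _ _ => rfl
  have hQ : SFF fun z : (α × ℕ) × (ℕ × (σ → ℕ)) => Qf z.1 z.2.1 := by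
    simp only [Qf]; fun_prop
  have hG : SFF fun z : (α × ℕ) × (ℕ × (σ → ℕ)) =>
      G z.1.1 ((Qf z.1 z.2.1).factorial * (Qf z.1 z.2.1).factorial - 1) z.2.2 :=
    (SFF.polyFn hf).comp (f := fun z : (α × ℕ) × (ℕ × (σ → ℕ)) => Sum.elim (enc (z.1.1,
      (Qf z.1 z.2.1).factorial * (Qf z.1 z.2.1).factorial - 1)) z.2.2) (SFF.pi (by
        rintro ((i | i) | i)
        · exact (henc i).comp (f := fun z : (α × ℕ) × (ℕ × (σ → ℕ)) => z.1.1) (by fun_prop)
        · exact (hQ.factorial.mul hQ.factorial).sub (SFF.const 1)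
        · exact (SFF.apply i).comp (f := fun z : (α × ℕ) × (ℕ × (σ → ℕ)) => z.2.2) (by fun_prop)))
  have hM : SFF fun z : (α × ℕ) × (ℕ × (σ → ℕ)) =>
      ((Qf z.1 z.2.1).factorial * (Qf z.1 z.2.1).factorial - 1).choose z.1.2 :=
    ((hQ.factorial.mul hQ.factorial).sub (SFF.const 1)).choose (by fun_prop)
  refine (SF.ex (R := fun (p : α × ℕ) (x : ℕ × (σ → ℕ)) => Cond (G p.1) p.2 (Qf p x.1) x.1 x.2)
    ((SF.forall fun j => SF.lt (by fun_prop) hM).and
      ((SF.forall fun j => SF.dvd hM (by fun_prop)).and ((SF.dvd hM hG.natAbs).and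
        ((SF.eq (by fun_prop) (by fun_prop)).or ((SF.ne (by fun_prop) (by fun_prop)).and
          (SF.ne (SFF.sum _ fun j => SFF.mod (by fun_prop) hM) (by fun_prop)))
          fun _ a b => b.1 a))))
    fun p x y hx hy => (H p).unique hx hy).congr fun p => ⟨?_, fun hp => (H p).complete
      fun k hk => (h1 _).1 ⟨(p.1, k), rfl, hp k hk⟩⟩
  rintro ⟨x, hx⟩ k hk
  obtain ⟨y, hy, -⟩ := (H p).sound hx hk
  exact (enc_iff (S := fun p : α × ℕ => R p.1 p.2) (p.1, k)).1 ((h1 _).2 ⟨y, hy⟩)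

end Vale.Agent.P345
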