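import Mathlib

/-!
The curve `y ^ 2 = x ^ 3 - 2 * x`: addition formulas and heights.
-/

noncomputable section

namespace Vale.Agent.P345

open WeierstrassCurve WeierstrassCurve.Affine WeierstrassCurve.Affine.Point Height Filter Topology

/-- The curve. -/
def EC : WeierstrassCurve ℚ := ⟨0, 0, 0, -2, 0⟩

instance : EC.IsElliptic := ⟨by
  simp only [EC, Δ, b₂, b₄, b₆, b₈]; norm_num⟩

/-- Its group of rational points. -/
abbrev GE := EC.toAffine.Point

theorem ns_iff {x y : ℚ} : EC.toAffine.Nonsingular x y ↔ y ^ 2 = x ^ 3 - 2 * x := by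
  rw [← equation_iff_nonsingular, equation_iff]
  simp only [EC]
  constructor <;> intro h <;> linarith

theorem negY_eq (x y : ℚ) : EC.toAffine.negY x y = -y := by simp [negY, EC]

theorem xRep_add {x₁ y₁ x₂ y₂ : ℚ} (h₁ : EC.toAffine.Nonsingular x₁ y₁)
    (h₂ : EC.toAffine.Nonsingular x₂ y₂) (hx : x₁ ≠ x₂) :
    ∃ y h, some x₁ y₁ h₁ + some x₂ y₂ h₂ =
      some (((y₁ - y₂) / (x₁ - x₂)) ^ 2 - x₁ - x₂) y h := by
  rw [add_of_X_ne hx]
  have e : EC.toAffine.addX x₁ x₂ (EC.toAffine.slope x₁ x₂ y₁ y₂) =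
      ((y₁ - y₂) / (x₁ - x₂)) ^ 2 - x₁ - x₂ := by
    rw [slope_of_X_ne hx]; simp [EC]
  exact ⟨_, e ▸ nonsingular_add h₁ h₂ fun hxy => hx hxy.left, by simp only [e]⟩

theorem xRep_dbl {x y : ℚ} (h : EC.toAffine.Nonsingular x y) (hy : y ≠ 0) :
    ∃ y' h', some x y h + some x y h = some (((x ^ 2 + 2) / (2 * y)) ^ 2) y' h' := by
  have hy' : y ≠ EC.toAffine.negY x y := by
    rw [negY_eq]; intro h; apply hy; linarith
  rw [add_self_of_Y_ne hy']
  have h0 := ns_iff.1 h
  have e : EC.toAffine.addX x x (EC.toAffine.slope x x y y) = ((x ^ 2 + 2) / (2 * y)) ^ 2 := by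
    rw [slope_of_Y_ne rfl hy', negY_eq]
    simp only [EC, addX]
    field_simp
    grind
  exact ⟨_, e ▸ nonsingular_add h h fun hxy => hy' hxy.right, by simp only [e]⟩

theorem dbl_zero {x y : ℚ} (h : EC.toAffine.Nonsingular x y) (hy : y = 0) :
    some x y h + some x y h = 0 := add_self_of_Y_eq (by rw [negY_eq, hy, _root_.neg_zero])

theorem addSubMap_eval (s t u : ℚ) :
    (fun i => (addSubMap EC i).eval ![s, t, u]) =
      ![s ^ 2 + 4 * s * u + 4 * u ^ 2, 2 * t * s - 4 * t * u, t ^ 2 - 4 * s * u] := by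
  funext i
  fin_cases i <;> simp [addSubMap, EC, b₂, b₄, b₆, b₈] <;> ring

theorem sym2x_dbl (P : GE) : ∃ c : ℚ, c ≠ 0 ∧
    c • sym2x (P + P) 0 = fun i => (addSubMap EC i).eval (sym2x P P) := by
  rcases P with _ | ⟨x, y, h⟩
  · refine ⟨1, one_ne_zero, ?_⟩
    rw [← zero_def, add_zero, sym2x_zero_zero, addSubMap_eval]
    simp
  · have h0 := ns_iff.1 h
    rw [sym2x_some_some, addSubMap_eval]
    by_cases hy : y = 0
    · refine ⟨(x ^ 2 + 2) ^ 2, by positivity, ?_⟩
      rw [dbl_zero h hy, sym2x_zero_zero]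
      subst hy
      funext i
      fin_cases i <;> simp <;> grind
    · obtain ⟨y', h', e⟩ := xRep_dbl h hy
      refine ⟨4 * y ^ 2, by positivity, ?_⟩
      rw [e, sym2x_some_zero]
      funext i
      fin_cases i <;> simp
      · field_simp; ring
      · grind
      · ring

theorem sym2x_add_sub (P Q : GE) : ∃ c : ℚ, c ≠ 0 ∧
    c • sym2x (P + Q) (P - Q) = fun i => (addSubMap EC i).eval (sym2x P Q) := by
  have hz : ∀ P : GE, sym2x P P = fun i => (addSubMap EC i).eval (sym2x P 0) := by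
    rintro (_ | ⟨x, y, h⟩)
    · rw [← zero_def, sym2x_zero_zero, addSubMap_eval]; simp
    · rw [sym2x_some_some, sym2x_some_zero, addSubMap_eval]
      funext i
      fin_cases i <;> simp <;> ring
  by_cases hPQ : P.xRep = Q.xRep
  · rcases eq_or_eq_neg_of_xRep_eq_xRep hPQ with rfl | rfl
    · rw [sub_self]; exact sym2x_dbl P
    · rw [neg_add_cancel, sub_eq_add_neg, ← neg_add, sym2x_neg_right, sym2x_neg_left, sym2x_comm]
      exact sym2x_dbl Q
  rcases P with _ | ⟨x₁, y₁, h₁⟩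
  · refine ⟨1, one_ne_zero, ?_⟩
    rw [← zero_def, zero_add, zero_sub, sym2x_neg_right, one_smul, sym2x_comm 0, hz]
  rcases Q with _ | ⟨x₂, y₂, h₂⟩
  · refine ⟨1, one_ne_zero, ?_⟩
    rw [← zero_def, add_zero, sub_zero, one_smul, hz]
  have hx : x₁ ≠ x₂ := fun h => hPQ (by simp [h])
  obtain ⟨y₃, h₃, e₃⟩ := xRep_add h₁ h₂ hx
  obtain ⟨y₄, h₄, e₄⟩ := xRep_add h₁ ((nonsingular_neg ..).mpr h₂) hx
  have hd : x₁ - x₂ ≠ 0 := sub_ne_zero.2 hx
  refine ⟨(x₁ - x₂) ^ 2, by positivity, ?_⟩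
  rw [sub_eq_add_neg (some x₁ y₁ h₁), neg_some, e₃, e₄, sym2x_some_some, sym2x_some_some,
    addSubMap_eval, negY_eq]
  have a1 := ns_iff.1 h₁
  have a2 := ns_iff.1 h₂
  funext i
  fin_cases i <;> simp
  · field_simp; grind
  · field_simp; grind
  · ring

/-- The naive logarithmic height. -/
def ht (P : GE) : ℝ := logHeight P.xRep

theorem ht_nonneg (P : GE) : 0 ≤ ht P := logHeight_nonneg _

theorem ht_some {x y : ℚ} (h : EC.toAffine.Nonsingular x y) :
    ht (some x y h) = Real.log (max x.num.natAbs x.den : ℕ) := by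
  rw [ht, xRep_some, ← logHeight₁_eq_logHeight, Rat.logHeight₁_eq_log_max]

theorem ht_par : ∃ C, ∀ P Q : GE, |ht (P + Q) + ht (P - Q) - 2 * (ht P + ht Q)| ≤ C := by
  obtain ⟨C₁, h₁⟩ := abs_logHeight_addSubMap_sub_two_mul_logHeight_le EC
  obtain ⟨C₂, h₂⟩ := abs_logHeight_sym2_sub_le ℚ
  have h₃ : ∀ P Q : GE, |logHeight (sym2x P Q) - (ht P + ht Q)| ≤ C₂ := by
    intro P Q
    have e : ∀ P : GE, ![P.xRep 0, P.xRep 1] = P.xRep := fun P => by
      funext i; fin_cases i <;> rfl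
    have := h₂ (a := P.xRep 0) (b := P.xRep 1) (c := Q.xRep 0) (d := Q.xRep 1)
      (by rw [e]; exact xRep_ne_zero P) (by rw [e]; exact xRep_ne_zero Q)
    rwa [e, e] at this
  refine ⟨C₁ + 3 * C₂, fun P Q => ?_⟩
  obtain ⟨c, hc, e⟩ := sym2x_add_sub P Q
  have a1 := h₁ (sym2x P Q)
  rw [← e, logHeight_smul_eq_logHeight _ hc] at a1
  have a2 := h₃ P Q
  have a3 := h₃ (P + Q) (P - Q)
  rw [abs_le] at *
  constructor <;> linarith [a1.1, a1.2, a2.1, a2.2, a3.1, a3.2]

instance : Northcott ht where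
  finite_le B := by
    refine Set.Finite.of_finite_fibers (fun P : GE => P.xRep) ?_ ?_
    · refine (((NumberField.finite_setOfPred_logHeight₁_le ℚ B).image
        fun x => ![x, 1]).insert ![1, 0]).subset ?_
      rintro _ ⟨_ | ⟨x, y, h⟩, hP, rfl⟩
      · left; rfl
      · right
        refine ⟨x, ?_, rfl⟩
        simpa [ht, logHeight₁_eq_logHeight] using hP
    · rintro _ ⟨P, -, rfl⟩
      refine (Set.toFinite {P, -P}).subset ?_
      rintro Q ⟨-, hQ⟩
      exact eq_or_eq_neg_of_xRep_eq_xRep hQ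

/-- The canonical height attached to an approximate quadratic form. -/
theorem exists_canonical {G : Type} [AddCommGroup G] {h : G → ℝ} {C : ℝ}
    (H : ∀ x y, |h (x + y) + h (x - y) - 2 * (h x + h y)| ≤ C) :
    ∃ (q : G → ℝ) (D : ℝ), (∀ x, |h x - q x| ≤ D) ∧ ∀ (n : ℤ) x, q (n • x) = n ^ 2 * q x := by
  let f : G → ℕ → ℝ := fun x k => h ((2 ^ k : ℕ) • x) / 4 ^ k
  have hf : ∀ x k, dist (f x k) (f x (k + 1)) ≤ (C + |h 0|) / 4 * (1 / 4) ^ k := by
    intro x k
    have h1 := H ((2 ^ k : ℕ) • x) ((2 ^ k : ℕ) • x)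
    rw [sub_self, ← add_nsmul, ← two_mul, ← pow_succ'] at h1
    have e : f x k - f x (k + 1) =
        -(h ((2 ^ (k + 1) : ℕ) • x) - 4 * h ((2 ^ k : ℕ) • x)) / 4 * (1 / 4) ^ k := by
      simp only [f, one_div_pow, pow_succ (4 : ℝ)]; field_simp; ring
    rw [Real.dist_eq, e, abs_mul, abs_div, abs_neg, abs_of_pos (by positivity : (0 : ℝ) < (1 / 4) ^ k),
      abs_of_pos (by norm_num : (0 : ℝ) < 4)]
    gcongr
    rw [abs_le] at *
    constructor <;> linarith [h1.1, h1.2, le_abs_self (h 0), neg_abs_le (h 0)]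
  have hlim := fun x => cauchySeq_tendsto_of_complete
    (cauchySeq_of_le_geometric (1 / 4) _ (by norm_num) (hf x))
  choose q hq using hlim
  have hpar : ∀ x y, q (x + y) + q (x - y) - 2 * (q x + q y) = 0 := by
    intro x y
    have t1 := ((hq (x + y)).add (hq (x - y))).sub (((hq x).add (hq y)).const_mul 2)
    have t2 : Tendsto (fun k : ℕ => C * (1 / 4 : ℝ) ^ k) atTop (𝓝 0) := by
      simpa using (tendsto_pow_atTop_nhds_zero_of_lt_one (r := (1 / 4 : ℝ)) (by norm_num)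
        (by norm_num)).const_mul C
    refine tendsto_nhds_unique t1 (squeeze_zero_norm (fun k => ?_) t2)
    have h1 := H ((2 ^ k : ℕ) • x) ((2 ^ k : ℕ) • y)
    rw [← nsmul_add, ← nsmul_sub] at h1
    have e : f (x + y) k + f (x - y) k - 2 * (f x k + f y k) =
        (h ((2 ^ k : ℕ) • (x + y)) + h ((2 ^ k : ℕ) • (x - y)) -
          2 * (h ((2 ^ k : ℕ) • x) + h ((2 ^ k : ℕ) • y))) * (1 / 4) ^ k := by
      simp only [f, one_div_pow]; field_simp
    rw [Real.norm_eq_abs, e, abs_mul, abs_of_pos (by positivity : (0 : ℝ) < (1 / 4) ^ k)]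
    gcongr
  have h0 : q 0 = 0 := by have := hpar 0 0; simp at this; linarith
  have hneg : ∀ x, q (-x) = q x := fun x => by
    have := hpar 0 x
    simp only [zero_add, zero_sub, h0] at this
    linarith
  have hnat : ∀ (n : ℕ) x, q (n • x) = n ^ 2 * q x ∧ q ((n + 1) • x) = (n + 1) ^ 2 * q x := by
    intro n x
    induction n with
    | zero => simp [h0]
    | succ n ih =>
      refine ⟨by exact_mod_cast ih.2, ?_⟩
      have := hpar ((n + 1) • x) x
      rw [← succ_nsmul, succ_nsmul x n, add_sub_cancel_right, ← succ_nsmul, ih.1, ih.2] at this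
      push_cast
      linarith
  refine ⟨q, (C + |h 0|) / 4 / (1 - 1 / 4), fun x => ?_, fun n x => ?_⟩
  · have := dist_le_of_le_geometric_of_tendsto₀ (1 / 4) _ (by norm_num) (hf x) (hq x)
    simpa [f, Real.dist_eq] using this
  · obtain ⟨m, rfl | rfl⟩ := n.eq_nat_or_neg
    · simpa using (hnat m x).1
    · simpa [hneg] using (hnat m x).1

end Vale.Agent.P345
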