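import Vale.Agent.P345.CurveA

/-!
Descent on `y ^ 2 = x ^ 3 - 2 * x`: the doubled points form an infinite cyclic group.
-/

noncomputable section

namespace Vale.Agent.P345

open WeierstrassCurve WeierstrassCurve.Affine WeierstrassCurve.Affine.Point

theorem cls {x y : ℚ} {b : ℤ} (hb : b ∣ 8) (hx : x ≠ 0) (h : x * (x ^ 2 + b) = y ^ 2) :
    ∃ s : ℚ, s ≠ 0 ∧ (|x| = s ^ 2 ∨ |x| = 2 * s ^ 2) := by
  set m := x.num with hm
  set e := x.den with he
  have he0 : (e : ℚ) ≠ 0 := by exact_mod_cast x.den_nz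
  have hxe : x = m / e := (Rat.num_div_den x).symm
  have hsq : IsSquare (m * e * (m ^ 2 + b * e ^ 2) : ℤ) := by
    rw [← Rat.isSquare_intCast_iff]
    refine ⟨y * e ^ 2, ?_⟩
    push_cast
    have : (m : ℚ) = x * e := by rw [hxe]; field_simp
    rw [this]
    linear_combination (e : ℚ) ^ 4 * h
  obtain ⟨Y, hY⟩ := hsq
  have hY' : m.natAbs * e * (m ^ 2 + b * e ^ 2).natAbs = Y.natAbs ^ 2 := by
    have := congrArg Int.natAbs hY
    simpa [Int.natAbs_mul, sq] using this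
  obtain ⟨r, a, hra, hr⟩ := Nat.sq_mul_squarefree (m.natAbs * e)
  have hm0 : m ≠ 0 := Rat.num_ne_zero.2 hx
  have ha0 : a ≠ 0 := by
    rintro rfl
    have : m.natAbs * e ≠ 0 := mul_ne_zero (Int.natAbs_ne_zero.2 hm0) x.den_nz
    apply this
    rw [← hra]; simp
  rw [← hra] at hY'
  obtain ⟨Z, hZ⟩ : a ∣ Y.natAbs :=
    (Nat.pow_dvd_pow_iff two_ne_zero).1 ⟨_, by rw [← hY', mul_assoc]⟩
  have hrB : r * (m ^ 2 + b * e ^ 2).natAbs = Z ^ 2 := by
    apply Nat.eq_of_mul_eq_mul_left (pow_pos (Nat.pos_of_ne_zero ha0) 2)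
    rw [← mul_assoc, hY', hZ, mul_pow]
  have hcop : m.natAbs.Coprime e := x.reduced
  have hp : ∀ p ∈ r.primeFactors, p = 2 := by
    intro p hp
    have pp := Nat.prime_of_mem_primeFactors hp
    obtain ⟨r', rfl⟩ := Nat.dvd_of_mem_primeFactors hp
    have h1 : p ∣ Z := pp.dvd_of_dvd_pow (hrB ▸ (dvd_mul_right p r').mul_right _)
    have h2 : p * p ∣ p * (r' * (m ^ 2 + b * e ^ 2).natAbs) := by
      rw [← mul_assoc, hrB, sq]; exact mul_dvd_mul h1 h1
    have h3 : p ∣ (m ^ 2 + b * e ^ 2).natAbs := by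
      rcases (Nat.Prime.dvd_mul pp).1 (Nat.dvd_of_mul_dvd_mul_left pp.pos h2) with h4 | h4
      · exact absurd (hr p (mul_dvd_mul_left p h4)) (by simpa using pp.ne_one)
      · exact h4
    have h3' : (p : ℤ) ∣ m ^ 2 + b * e ^ 2 := Int.natCast_dvd.2 h3
    have ppz : Prime (p : ℤ) := Nat.prime_iff_prime_int.1 pp
    have hne : p ∣ m.natAbs → p ∣ e → False := fun h5 h6 =>
      pp.ne_one (Nat.eq_one_of_dvd_coprimes hcop h5 h6)
    rcases (Nat.Prime.dvd_mul pp).1 (hra ▸ (dvd_mul_right p r').mul_left _) with h4 | h4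
    · have h5 : (p : ℤ) ∣ b * e ^ 2 :=
        (dvd_add_right (dvd_pow (Int.natCast_dvd.2 h4) two_ne_zero)).1 h3'
      rcases ppz.dvd_or_dvd h5 with h6 | h6
      · have h7 : p ∣ 2 ^ 3 := by exact_mod_cast h6.trans hb
        exact (Nat.prime_dvd_prime_iff_eq pp Nat.prime_two).1 (pp.dvd_of_dvd_pow h7)
      · exact (hne h4 (by exact_mod_cast ppz.dvd_of_dvd_pow h6)).elim
    · have h5 : (p : ℤ) ∣ m ^ 2 :=
        (dvd_add_left ((dvd_pow (Int.natCast_dvd_natCast.2 h4) two_ne_zero).mul_left b)).1 h3'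
      exact (hne (Int.natCast_dvd.1 (ppz.dvd_of_dvd_pow h5)) h4).elim
  have hr2 : r ∣ 2 := by
    rw [← Nat.prod_primeFactors_of_squarefree hr]
    simpa using Finset.prod_dvd_prod_of_subset r.primeFactors {2} (fun p => p)
      fun p h => by simpa using hp p h
  have hx' : |x| = r * ((a : ℚ) / e) ^ 2 := by
    have : ((a ^ 2 * r : ℕ) : ℚ) = (m.natAbs * e : ℕ) := by rw [hra]
    push_cast at this
    rw [Nat.cast_natAbs, Int.cast_abs] at this
    rw [hxe, abs_div, Nat.abs_cast]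
    field_simp
    linear_combination -this
  refine ⟨a / e, div_ne_zero (by exact_mod_cast ha0) he0, ?_⟩
  rcases (Nat.dvd_prime Nat.prime_two).1 hr2 with rfl | rfl
  · left; simpa using hx'
  · right; simpa using hx'

theorem half {u y : ℚ} (hu : u ≠ 0) (h : EC.toAffine.Nonsingular (u ^ 2) y) :
    ∃ R : GE, R + R = some (u ^ 2) y h := by
  have h0 := ns_iff.1 h
  obtain ⟨s, hs0, hs⟩ : ∃ s : ℚ, s ≠ 0 ∧ s ^ 2 * (4 * u ^ 2 - s ^ 2) = 8 := by
    set X := 2 * u ^ 2 + 2 * y / u with hX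
    have h1 : X * (4 * u ^ 2 - X) = 8 := by rw [hX]; field_simp; grind
    have hu2 : 0 < u ^ 2 := by positivity
    have h2 : 0 < X := by nlinarith
    obtain ⟨s, hs0, hs⟩ := cls (x := X) (y := 2 * u * X) (b := 8) dvd_rfl h2.ne'
      (by push_cast; linear_combination (-X) * h1)
    rw [abs_of_pos h2] at hs
    rcases hs with hs | hs
    · exact ⟨s, hs0, by rw [← hs]; exact h1⟩
    · refine ⟨2 / s, by positivity, ?_⟩
      rw [hs] at h1
      field_simp
      linear_combination 2 * h1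
  have h1 : s * (s + 2 * u) / 2 * (s * (s + 2 * u) / 2 - s ^ 2) = 2 := by
    linear_combination hs / 4
  set x := s * (s + 2 * u) / 2 with hx
  have hx0 : x ≠ 0 := fun h => by rw [h] at h1; norm_num at h1
  have hR : EC.toAffine.Nonsingular x (s * x) := ns_iff.2 (by linear_combination (-x) * h1)
  obtain ⟨y', h', e⟩ := xRep_dbl hR (mul_ne_zero hs0 hx0)
  have e2 : ((x ^ 2 + 2) / (2 * (s * x))) ^ 2 = u ^ 2 := by
    congr 1
    field_simp
    linear_combination -h1 + 2 * x * hx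
  rcases (X_eq_iff (h₁ := h') (h₂ := h)).1 e2 with e3 | e3
  · exact ⟨_, e.trans e3⟩
  · exact ⟨-some _ _ hR, by rw [← neg_add, e, e3, neg_neg]⟩

/-- The point `(-1, 1)`. -/
def ptP : GE := some (-1) 1 (ns_iff.2 (by norm_num))

/-- The point `(0, 0)`. -/
def ptT : GE := some 0 0 (ns_iff.2 (by norm_num))

/-- The subgroup of doubled points. -/
def G0 : AddSubgroup GE := (nsmulAddMonoidHom 2 : GE →+ GE).range

theorem mem_G0 {Q : GE} : Q ∈ G0 ↔ ∃ R, R + R = Q := by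
  simp [G0, two_nsmul]

theorem ptT_dbl : ptT + ptT = 0 := dbl_zero _ rfl

theorem desc (Q : GE) : ∃ (R : GE) (a b : ℤ), Q = R + R + a • ptP + b • ptT := by
  let K : AddSubgroup GE := G0 ⊔ AddSubgroup.closure {ptP, ptT}
  have hP : ptP ∈ K := AddSubgroup.mem_sup_right (AddSubgroup.subset_closure (by simp))
  have hT : ptT ∈ K := AddSubgroup.mem_sup_right (AddSubgroup.subset_closure (by simp))
  have step : ∀ {x₀ y₀ x y : ℚ} (h₀ : EC.toAffine.Nonsingular x₀ y₀)
      (h : EC.toAffine.Nonsingular x y), some x₀ y₀ h₀ ∈ K →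
      (∀ x₃ y₃ h₃ ν, x₃ * x * x₀ = ν ^ 2 → some x₃ y₃ h₃ ∈ K) → some x y h ∈ K := by
    intro x₀ y₀ x y h₀ h hK H
    by_cases hx : x = x₀
    · rcases (X_eq_iff (h₁ := h) (h₂ := h₀)).1 hx with e | e
      · rwa [e]
      · rw [e]; exact neg_mem hK
    · obtain ⟨y₃, h₃, e⟩ := xRep_add h h₀ hx
      have a1 := ns_iff.1 h
      have a2 := ns_iff.1 h₀
      have hd : x - x₀ ≠ 0 := sub_ne_zero.2 hx
      have := H _ _ h₃ ((x * y₀ - x₀ * y) / (x - x₀)) (by field_simp; grind)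
      rw [← e] at this
      simpa using sub_mem this hK
  have c1 : ∀ x y h (s : ℚ), x = s ^ 2 → some x y h ∈ K := by
    rintro _ y h s rfl
    by_cases hs : s = 0
    · subst hs
      have : y = 0 := by simpa using ns_iff.1 h
      subst this
      simpa [ptT] using hT
    · exact AddSubgroup.mem_sup_left (mem_G0.2 (half hs h))
  have hP' : some 2 (-2) (ns_iff.2 (by norm_num)) ∈ K := by
    obtain ⟨y₃, h₃, e⟩ := xRep_add (x₁ := 2) (y₁ := -2) (x₂ := -1) (y₂ := 1)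
      (ns_iff.2 (by norm_num)) (ns_iff.2 (by norm_num)) (by norm_num)
    have := c1 _ _ h₃ 0 (by norm_num)
    rw [← e] at this
    simpa [ptP] using sub_mem this hP
  have c2 : ∀ x y h (s : ℚ), x = 2 * s ^ 2 → some x y h ∈ K := by
    intro x y h s hx
    by_cases hs : s = 0
    · exact c1 x y h 0 (by simp [hx, hs])
    · exact step _ h hP' fun x₃ y₃ h₃ ν hν => c1 _ _ _ (ν / (2 * s)) (by
        rw [hx] at hν; field_simp; linear_combination hν)
  have hK : Q ∈ K := by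
    rcases Q with _ | ⟨x, y, h⟩
    · exact zero_mem K
    by_cases hx : x = 0
    · exact c1 x y h 0 (by simp [hx])
    obtain ⟨s, hs0, hs⟩ := cls (x := x) (y := y) (b := -2) (by norm_num) hx
      (by push_cast; linear_combination -ns_iff.1 h)
    rcases abs_choice x with e | e <;> rw [e] at hs <;> rcases hs with hs | hs
    · exact c1 _ _ _ s hs
    · exact c2 _ _ _ s hs
    · exact step _ h hP fun x₃ y₃ h₃ ν hν => c1 _ _ _ (ν / s) (by
        field_simp; linear_combination hν - x₃ * hs)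
    · exact step _ h hP fun x₃ y₃ h₃ ν hν => c2 _ _ _ (ν / (2 * s)) (by
        field_simp; linear_combination hν - x₃ * hs)
  obtain ⟨A, hA, B, hB, rfl⟩ := AddSubgroup.mem_sup.1 hK
  obtain ⟨R, rfl⟩ := mem_G0.1 hA
  obtain ⟨a, b, rfl⟩ := AddSubgroup.mem_closure_pair.1 hB
  exact ⟨R, a, b, by rw [add_assoc (R + R)]⟩

theorem mem_G0_iff {x y : ℚ} (h : EC.toAffine.Nonsingular x y) :
    some x y h ∈ G0 ↔ ∃ u : ℚ, 0 < u ∧ x = u ^ 2 := by
  constructor
  · intro hm
    obtain ⟨R, hR⟩ := mem_G0.1 hm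
    rcases R with _ | ⟨a, b, hab⟩
    · rw [← zero_def, add_zero] at hR
      exact absurd hR.symm (some_ne_zero h)
    by_cases hb : b = 0
    · rw [dbl_zero hab hb] at hR
      exact absurd hR.symm (some_ne_zero h)
    obtain ⟨y', h', e⟩ := xRep_dbl hab hb
    rw [e, some.injEq] at hR
    refine ⟨|(a ^ 2 + 2) / (2 * b)|, abs_pos.2 (by positivity), by rw [sq_abs, hR.1]⟩
  · rintro ⟨u, hu, rfl⟩
    exact mem_G0.2 (half hu.ne' h)

theorem val_neg {u y : ℚ} (hu : u ≠ 0) (h : y ^ 2 = (u ^ 2) ^ 3 - 2 * u ^ 2) :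
    padicValRat 2 (u ^ 2) < 0 := by
  have he0 : (u.den : ℚ) ≠ 0 := by exact_mod_cast u.den_nz
  have hsq : IsSquare (u.num ^ 4 - 2 * u.den ^ 4 : ℤ) := by
    rw [← Rat.isSquare_intCast_iff]
    refine ⟨y / u * u.den ^ 2, ?_⟩
    push_cast
    rw [← Rat.mul_den_eq_num]
    field_simp
    linear_combination -h
  obtain ⟨c, hc⟩ := hsq
  have hd : 2 ∣ u.den := by
    by_contra hd
    obtain ⟨k, hk⟩ : ∃ k : ℤ, (u.den : ℤ) = 2 * k + 1 := ⟨u.den / 2, by omega⟩
    rw [hk] at hc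
    have h4 : ∀ a c k : ZMod 4, a ^ 4 - 2 * (2 * k + 1) ^ 4 ≠ c * c := by decide
    exact h4 u.num c k (by exact_mod_cast congrArg (Int.cast : ℤ → ZMod 4) hc)
  have hn : ¬ ((2 : ℕ) : ℤ) ∣ u.num := fun hn =>
    absurd (Nat.eq_one_of_dvd_coprimes u.reduced (Int.natCast_dvd.1 hn) hd) (by norm_num)
  have h1 := one_le_padicValNat_of_dvd (p := 2) u.den_nz hd
  rw [padicValRat.pow, padicValRat_def, padicValInt.eq_zero_of_not_dvd hn]
  generalize padicValNat 2 u.den = t at *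
  push_cast
  omega

theorem val_dbl {x y : ℚ} (h : EC.toAffine.Nonsingular x y) (hv : padicValRat 2 x < 0) :
    ∃ x' y' h', some x y h + some x y h = some x' y' h' ∧ padicValRat 2 x' < padicValRat 2 x := by
  have h0 := ns_iff.1 h
  have hx : x ≠ 0 := by rintro rfl; simp at hv
  have v2 : padicValRat 2 2 = 1 := padicValRat.self (p := 2) (by norm_num)
  have hx2 : x ^ 2 + -2 ≠ 0 := by
    intro e
    have : padicValRat 2 (x ^ 2) = padicValRat 2 2 := by congr 1; linarith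
    rw [padicValRat.pow, v2] at this
    push_cast at this
    omega
  have hy2 : y ^ 2 = x * (x ^ 2 + -2) := by linarith
  have hy : y ≠ 0 := by
    rintro rfl
    exact mul_ne_zero hx hx2 (by rw [← hy2]; norm_num)
  obtain ⟨y', h', e⟩ := xRep_dbl h hy
  refine ⟨_, y', h', e, ?_⟩
  have a1 : padicValRat 2 (x ^ 2 + 2) = padicValRat 2 (x ^ 2) :=
    padicValRat.add_eq_of_lt (by positivity) (by positivity) (by norm_num)
      (by rw [padicValRat.pow, v2]; push_cast; omega)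
  have a2 : padicValRat 2 (x ^ 2 + -2) = padicValRat 2 (x ^ 2) :=
    padicValRat.add_eq_of_lt hx2 (by positivity) (by norm_num)
      (by rw [padicValRat.pow, padicValRat.neg, v2]; push_cast; omega)
  have a3 := congrArg (padicValRat 2) hy2
  rw [padicValRat.mul hx hx2, a2, padicValRat.pow, padicValRat.pow] at a3
  rw [padicValRat.pow, padicValRat.div (by positivity) (by positivity), a1,
    padicValRat.mul (by norm_num) hy, v2, padicValRat.pow]
  push_cast at *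
  omega

theorem G0_torsion_free {Q : GE} (hQ : Q ∈ G0) {n : ℤ} (hn : n ≠ 0) (h : n • Q = 0) : Q = 0 := by
  rcases Q with _ | ⟨x, y, hxy⟩
  · rfl
  exfalso
  obtain ⟨u, hu, rfl⟩ := (mem_G0_iff hxy).1 hQ
  have hv := val_neg hu.ne' (ns_iff.1 hxy)
  let v : GE → ℤ := fun P => padicValRat 2 (P.xRep 0)
  have key : ∀ k : ℕ, ∃ x' y' h', (2 ^ k : ℕ) • some _ y hxy = some x' y' h' ∧
      padicValRat 2 x' < -k := by
    intro k
    induction k with
    | zero => exact ⟨_, _, hxy, by simp, by simpa using hv⟩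
    | succ k ih =>
      obtain ⟨x', y', h', e, hv'⟩ := ih
      obtain ⟨x'', y'', h'', e', hv''⟩ := val_dbl h' (by omega)
      exact ⟨x'', y'', h'', by rw [pow_succ, mul_nsmul, e, two_nsmul, e'], by push_cast; omega⟩
  have hfin := (isOfFinAddOrder_iff_zsmul_eq_zero.2 ⟨n, hn, h⟩).finite_multiples
  obtain ⟨B, hB⟩ := (hfin.image v).bddBelow
  obtain ⟨x', y', h', e, hv'⟩ := key B.natAbs
  have : B ≤ v (some x' y' h') := hB ⟨_, ⟨_, e⟩, rfl⟩
  simp only [v, xRep_some, Matrix.cons_val_zero] at this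
  omega

theorem fg_GE : AddGroup.FG GE := by
  obtain ⟨C, hC⟩ := ht_par
  refine AddCommGroup.fg_of_descent' ?_ ht_nonneg hC
  have : Finite (GE ⧸ G0) := by
    refine Finite.of_surjective (fun p : Fin 2 × Fin 2 =>
      (QuotientAddGroup.mk (((p.1 : ℕ) : ℤ) • ptP + ((p.2 : ℕ) : ℤ) • ptT) : GE ⧸ G0)) fun q => ?_
    obtain ⟨Q, rfl⟩ := QuotientAddGroup.mk_surjective q
    obtain ⟨R, a, b, rfl⟩ := desc Q
    refine ⟨(⟨(a % 2).toNat, by omega⟩, ⟨(b % 2).toNat, by omega⟩), ?_⟩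
    rw [QuotientAddGroup.eq]
    refine mem_G0.2 ⟨R + (a / 2) • ptP + (b / 2) • ptT, ?_⟩
    have ha : (((a % 2).toNat : ℕ) : ℤ) = a - 2 * (a / 2) := by omega
    have hb : (((b % 2).toNat : ℕ) : ℤ) = b - 2 * (b / 2) := by omega
    simp only [ha, hb]
    module
  exact AddSubgroup.finiteIndex_of_finite_quotient (H := G0)

theorem exists_odd : ∃ r : ℤ, r ≠ 0 ∧ ∀ Q ∈ G0, r • Q ∈ AddSubgroup.zmultiples (ptP + ptP) := by
  have hfg : (⊤ : Submodule ℤ GE).FG := (Module.Finite.iff_addGroup_fg.2 fg_GE).fg_top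
  obtain ⟨r, hr, hle⟩ := Submodule.exists_sub_one_mem_and_smul_le_of_fg_of_le_sup
    (I := Ideal.span {(2 : ℤ)}) (N := Submodule.span ℤ {ptP, ptT}) (P := ⊤) hfg le_rfl (by
      intro Q _
      obtain ⟨R, a, b, rfl⟩ := desc Q
      rw [add_assoc (R + R), add_comm (R + R)]
      refine Submodule.add_mem_sup (Submodule.mem_span_pair.2 ⟨a, b, rfl⟩) ?_
      rw [← two_zsmul]
      exact Submodule.smul_mem_smul (Ideal.mem_span_singleton_self _) trivial)
  rw [Ideal.mem_span_singleton] at hr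
  refine ⟨r, by omega, fun Q hQ => ?_⟩
  obtain ⟨R, rfl⟩ := mem_G0.1 hQ
  obtain ⟨a, b, e⟩ := Submodule.mem_span_pair.1 (hle (Submodule.smul_mem_pointwise_smul R r ⊤ trivial))
  refine ⟨a, ?_⟩
  have h2 : b • ptT + b • ptT = 0 := by rw [← zsmul_add, ptT_dbl, zsmul_zero]
  beta_reduce
  rw [zsmul_add, zsmul_add, ← e, ← add_zero (a • ptP + a • ptP), ← h2]
  abel

theorem exists_gen : ∃ P₁ : GE, (∀ n : ℤ, n • P₁ = 0 → n = 0) ∧
    (∀ x y h, (∃ n : ℤ, n • P₁ = some x y h) ↔ ∃ u : ℚ, 0 < u ∧ x = u ^ 2) ∧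
    ∃ c C : ℝ, 0 < c ∧ ∀ n : ℤ, |ht (n • P₁) - c * n ^ 2| ≤ C := by
  obtain ⟨r, hr, hG⟩ := exists_odd
  have hcyc : IsAddCyclic G0 := isAddCyclic_of_injective
    (((zsmulAddGroupHom r : GE →+ GE).comp G0.subtype).codRestrict _ fun Q => hG Q Q.2) (by
      rw [injective_iff_map_eq_zero]
      intro Q hQ
      exact Subtype.ext (G0_torsion_free Q.2 hr (congrArg Subtype.val hQ)))
  obtain ⟨P₁, hP₁⟩ := (AddSubgroup.isAddCyclic_iff_exists_zmultiples_eq_top G0).1 hcyc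
  have hne : P₁ ≠ 0 := by
    rintro rfl
    obtain ⟨y', h', e⟩ := xRep_dbl (x := -1) (y := 1) (ns_iff.2 (by norm_num)) one_ne_zero
    have : some _ y' h' ∈ G0 := mem_G0.2 ⟨_, e⟩
    rw [← hP₁, AddSubgroup.zmultiples_zero_eq_bot, AddSubgroup.mem_bot] at this
    exact some_ne_zero _ this
  have hinj : ∀ n : ℤ, n • P₁ = 0 → n = 0 := fun n hn => by
    by_contra h0
    exact hne (G0_torsion_free (hP₁ ▸ AddSubgroup.mem_zmultiples P₁) h0 hn)
  refine ⟨P₁, hinj, fun x y h => ?_, ?_⟩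
  · rw [← mem_G0_iff h, ← hP₁]; rfl
  obtain ⟨C, hC⟩ := ht_par
  obtain ⟨q, D, h1, h2⟩ := exists_canonical hC
  refine ⟨q P₁, D, ?_, fun n => by rw [mul_comm, ← h2]; exact h1 _⟩
  by_contra hq
  push Not at hq
  refine Set.infinite_of_injective_forall_mem (f := fun n : ℤ => n • P₁) ?_ ?_
    (Northcott.finite_le (h := ht) D)
  · intro a b hab
    have : (a - b) • P₁ = 0 := by rw [sub_smul]; exact sub_eq_zero.2 hab
    exact sub_eq_zero.1 (hinj _ this)
  · intro n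
    have h3 := (abs_le.1 (h1 (n • P₁))).2
    rw [h2] at h3
    have : (n : ℝ) ^ 2 * q P₁ ≤ 0 := mul_nonpos_of_nonneg_of_nonpos (sq_nonneg _) hq
    change ht _ ≤ D
    linarith

end Vale.Agent.P345
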