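import Vale.Agent.P345.Quasi

/-!
Exponentiation, binomial coefficients and the factorial are single-fold.
-/

namespace Vale.Agent.P345

open Pell

theorem yn_bounds {a : ℕ} (a1 : 1 < a) (n : ℕ) :
    (2 * a - 1) ^ n ≤ yn a1 (n + 1) ∧ yn a1 (n + 1) ≤ (2 * a) ^ n := by
  induction n with
  | zero => simp
  | succ n ih =>
    have h1 := yn_succ_succ a1 n
    have h2 : yn a1 n ≤ yn a1 (n + 1) := (strictMono_y a1).monotone (by omega)
    obtain ⟨b, hb⟩ : ∃ b, 2 * a = b + 1 := ⟨2 * a - 1, by omega⟩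
    rw [hb] at ih h1 ⊢
    rw [Nat.add_sub_cancel] at ih ⊢
    rw [pow_succ, pow_succ, show n + 1 + 1 = n + 2 from rfl]
    constructor <;> nlinarith [ih.1, ih.2]

/-- Bounded solutions of the Pell equation with prescribed residue. -/
def PY (a j B y : ℕ) : Prop :=
  (∃ x, x * x - (a * a - 1) * y * y = 1) ∧ y % (a - 1) = j % (a - 1) ∧ y ≤ B

theorem SF.py {α : Type} [Cod α] {a j B y : α → ℕ} (ha : SFF a) (hj : SFF j) (hB : SFF B)
    (hy : SFF y) : SF fun v => PY (a v) (j v) (B v) (y v) := by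
  refine (SF.ex (R := fun v (x : ℕ) => x * x - (a v * a v - 1) * y v * y v = 1)
    (SF.eq (by fun_prop) (by fun_prop)) ?_).and
    ((SF.eq (by fun_prop) (by fun_prop)).and (SF.le hy hB))
  intro v x x' h h'
  exact Nat.mul_self_inj.1 (by omega)

theorem py_iff {a j B y : ℕ} (a1 : 1 < a) (hj : j < a - 1) (hB : B < 2 ^ (a - 2)) :
    PY a j B y ↔ y = yn a1 j ∧ y ≤ B := by
  constructor
  · rintro ⟨⟨x, hx⟩, h1, h2⟩
    obtain ⟨m, -, rfl⟩ := eq_pell a1 hx
    refine ⟨?_, h2⟩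
    have hm : m < a - 1 := by
      by_contra hm
      have b1 : yn a1 (a - 2 + 1) ≤ yn a1 m := (strictMono_y a1).monotone (by omega)
      have b2 := (yn_bounds a1 (a - 2)).1
      have b3 : 2 ^ (a - 2) ≤ (2 * a - 1) ^ (a - 2) := Nat.pow_le_pow_left (by omega) _
      omega
    rw [Nat.ModEq.eq_of_lt_of_lt ((yn_modEq_a_sub_one a1 m).symm.trans h1) hm hj]
  · rintro ⟨rfl, h⟩
    exact ⟨⟨_, pell_eq a1 j⟩, yn_modEq_a_sub_one a1 j, h⟩

theorem ratio_lt {a n : ℕ} (ha : 1 ≤ a) (h : n * (2 ^ n + 1) ≤ a) :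
    (2 * (2 * a + 1)) ^ n < (2 ^ n + 1) * (2 * a - 1) ^ n := by
  have ha' : (1 : ℝ) ≤ a := by exact_mod_cast ha
  have h' : (n : ℝ) * (2 ^ n + 1) ≤ a := by exact_mod_cast h
  have h1 := one_add_mul_le_pow (a := -2 / (2 * (a : ℝ) + 1))
    (by rw [le_div_iff₀ (by positivity)]; linarith) n
  have e : 1 + -2 / (2 * (a : ℝ) + 1) = (2 * a - 1) / (2 * a + 1) := by field_simp; ring
  rw [e, div_pow, le_div_iff₀ (by positivity)] at h1
  have h2 : (2 : ℝ) ^ n < (2 ^ n + 1) * (1 + n * (-2 / (2 * a + 1))) := by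
    have : (2 ^ n + 1) * (1 + n * (-2 / (2 * (a : ℝ) + 1))) =
        2 ^ n + (2 * a + 1 - 2 * (n * (2 ^ n + 1))) / (2 * a + 1) := by field_simp; ring
    rw [this, lt_add_iff_pos_right]
    exact div_pos (by linarith) (by positivity)
  have h3 : (2 * (2 * (a : ℝ) + 1)) ^ n < (2 ^ n + 1) * (2 * a - 1) ^ n := by
    rw [mul_pow]
    calc (2 : ℝ) ^ n * (2 * a + 1) ^ n
        < (2 ^ n + 1) * (1 + n * (-2 / (2 * a + 1))) * (2 * a + 1) ^ n := by gcongr
      _ ≤ _ := by rw [mul_assoc]; gcongr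
  have e2 : ((2 * a - 1 : ℕ) : ℝ) = 2 * a - 1 := by
    rw [Nat.cast_sub (by omega)]; push_cast; ring
  rw [← e2] at h3
  exact_mod_cast h3

theorem two_pow_iff {a B n c : ℕ} (h1 : n * (c + 1) + n + 5 ≤ a) (hB : B < 2 ^ (a - 2))
    (hB' : c = 2 ^ n → (2 * (2 * a + 1)) ^ n ≤ B) :
    (∃ y : ℕ × ℕ, PY a (n + 1) B y.1 ∧ PY (2 * a + 1) (n + 1) B y.2 ∧ c * y.1 ≤ y.2 ∧
      y.2 < (c + 1) * y.1) ↔ c = 2 ^ n := by
  have a1 : 1 < a := by omega
  have a2 : 1 < 2 * a + 1 := by omega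
  have hB2 : B < 2 ^ (2 * a + 1 - 2) := hB.trans_le (Nat.pow_le_pow_right (by norm_num) (by omega))
  simp only [py_iff a1 (show n + 1 < a - 1 by omega) hB,
    py_iff a2 (show n + 1 < 2 * a + 1 - 1 by omega) hB2]
  obtain ⟨b1, b2⟩ := yn_bounds a1 n
  obtain ⟨b3, b4⟩ := yn_bounds a2 n
  have b5 : 2 ^ n * (2 * a) ^ n ≤ (2 * (2 * a + 1) - 1) ^ n := by
    rw [← mul_pow]; exact Nat.pow_le_pow_left (by omega) _
  constructor
  · rintro ⟨⟨y, y'⟩, ⟨rfl, -⟩, ⟨rfl, -⟩, c1, c2⟩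
    have d1 : 2 ^ n < c + 1 := Nat.lt_of_mul_lt_mul_right (a := (2 * a) ^ n)
      ((b5.trans b3).trans_lt (c2.trans_le (Nat.mul_le_mul_left _ b2)))
    have d2 := ratio_lt (a := a) (n := n) (by omega)
      ((Nat.mul_le_mul_left n (show 2 ^ n + 1 ≤ c + 1 by omega)).trans (by omega))
    have d3 : c < 2 ^ n + 1 := Nat.lt_of_mul_lt_mul_right (a := (2 * a - 1) ^ n)
      (((Nat.mul_le_mul_left _ b1).trans (c1.trans b4)).trans_lt d2)
    omega
  · rintro rfl
    have d2 := ratio_lt (a := a) (n := n) (by omega) (by omega)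
    have d3 := hB' rfl
    refine ⟨(_, _), ⟨rfl, ?_⟩, ⟨rfl, b4.trans d3⟩, ((Nat.mul_le_mul_left _ b2).trans b5).trans b3,
      (b4.trans_lt d2).trans_le (Nat.mul_le_mul_left _ b1)⟩
    exact b2.trans ((Nat.pow_le_pow_left (by omega) _).trans d3)

theorem sff_two_pow : SFF fun n : ℕ => 2 ^ n := by
  obtain ⟨F, hF, K, hK⟩ := exists_quasi
  let w : ℕ × ℕ → ℕ := fun p => p.2 + p.1 + K + 100
  let a : ℕ × ℕ → ℕ := fun p => 4 * K * ((w p + 1) * (w p + 1)) + p.1 * (p.2 + 1) + p.1 + 5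
  let B : ℕ × ℕ → ℕ := fun p => F (w p) ^ 4
  have hw : SFF w := by fun_prop
  have ha : SFF a := by fun_prop
  have hB : SFF B := (hF.comp hw).pow_const 4
  have hB1 : ∀ p, B p < 2 ^ (a p - 2) := fun p => by
    refine (Nat.pow_le_pow_left (hK (w p)).2 4).trans_lt ?_
    rw [← pow_mul]
    refine Nat.pow_lt_pow_right (by norm_num) ?_
    simp only [a, sq]
    have : K * ((w p + 1) * (w p + 1)) * 4 = 4 * K * ((w p + 1) * (w p + 1)) := by ring
    omega
  have ha1 : ∀ p : ℕ × ℕ, p.1 * (p.2 + 1) + p.1 + 5 ≤ a p := fun p => by simp only [a]; omega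
  refine (SF.ex (R := fun (p : ℕ × ℕ) (y : ℕ × ℕ) => PY (a p) (p.1 + 1) (B p) y.1 ∧
    PY (2 * a p + 1) (p.1 + 1) (B p) y.2 ∧ p.2 * y.1 ≤ y.2 ∧ y.2 < (p.2 + 1) * y.1)
    ((SF.py (by fun_prop) (by fun_prop) (by fun_prop) (by fun_prop)).and
      ((SF.py (by fun_prop) (by fun_prop) (by fun_prop) (by fun_prop)).and
        ((SF.le (by fun_prop) (by fun_prop)).and (SF.lt (by fun_prop) (by fun_prop))))) ?_).congr
    fun p => two_pow_iff (ha1 p) (hB1 p) fun hp => ?_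
  · rintro p y y' ⟨h1, h2, -⟩ ⟨h3, h4, -⟩
    have := ha1 p
    have a1 : 1 < a p := by omega
    have a2 : 1 < 2 * a p + 1 := by omega
    have hB2 : B p < 2 ^ (2 * a p + 1 - 2) :=
      (hB1 p).trans_le (Nat.pow_le_pow_right (by norm_num) (by omega))
    rw [py_iff a1 (by omega) (hB1 p)] at h1 h3
    rw [py_iff a2 (by omega) hB2] at h2 h4
    exact Prod.ext (h1.1.trans h3.1.symm) (h2.1.trans h4.1.symm)
  · have h1 := (hK (w p)).1 p.1 (by simp only [w]; omega)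
    refine le_trans ?_ (Nat.pow_le_pow_left h1 4)
    rw [← pow_mul, mul_comm p.1 4, pow_mul]
    refine Nat.pow_le_pow_left ?_ _
    have e1 : K ≤ w p := by simp only [w]; omega
    have e2 : p.1 ≤ w p := by simp only [w]; omega
    have e3 : p.2 + 1 ≤ w p := by simp only [w]; omega
    have e4 : 100 ≤ w p := by simp only [w]; omega
    simp only [a]
    generalize w p = W at *
    have f1 : p.1 * (p.2 + 1) ≤ W * W := Nat.mul_le_mul e2 e3
    have f2 : (W + 1) * (W + 1) ≤ 4 * (W * W) := by nlinarith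
    have f3 : 4 * K * ((W + 1) * (W + 1)) ≤ 4 * W * (4 * (W * W)) :=
      Nat.mul_le_mul (by omega) f2
    have f4 : 100 * W ≤ W * W := Nat.mul_le_mul_right _ e4
    have f5 : 100 * (W * W) ≤ W * (W * W) := Nat.mul_le_mul_right _ e4
    have f6 : 100 * (W * (W * W)) ≤ W * (W * (W * W)) := Nat.mul_le_mul_right _ e4
    have f7 : W ^ 4 = W * (W * (W * W)) := by ring
    have f8 : 4 * W * (4 * (W * W)) = 16 * (W * (W * W)) := by ring
    omega

variable {α : Type} [Cod α] {f g : α → ℕ}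

theorem pow_eq_mod (b n : ℕ) :
    2 ^ ((b * n + b + 1) * n) % (2 ^ (b * n + b + 1) - b) = b ^ n := by
  have h1 : b ^ n ≤ 2 ^ (b * n) := by
    rw [pow_mul]; exact Nat.pow_le_pow_left Nat.lt_two_pow_self.le _
  have h2 : b < 2 ^ b := Nat.lt_two_pow_self
  have h3 : 2 ^ (b * n) + b < 2 ^ (b * n + b + 1) := by
    rw [pow_succ, pow_add]
    have : 0 < 2 ^ (b * n) := by positivity
    nlinarith
  have h4 : b ≡ 2 ^ (b * n + b + 1) [MOD 2 ^ (b * n + b + 1) - b] :=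
    (Nat.modEq_iff_dvd' (by omega)).2 dvd_rfl
  rw [pow_mul, ← (h4.pow n : _ % _ = _ % _), Nat.mod_eq_of_lt (by omega)]

@[fun_prop] theorem SFF.pow (hf : SFF f) (hg : SFF g) : SFF fun v => f v ^ g v :=
  ((sff_two_pow.comp (f := fun v => (f v * g v + f v + 1) * g v) (by fun_prop)).mod
    ((sff_two_pow.comp (f := fun v => f v * g v + f v + 1) (by fun_prop)).sub hf)).congr
    fun _ => pow_eq_mod _ _

theorem digit_sum {u : ℕ} (b : ℕ) : ∀ (t : ℕ → ℕ) (N : ℕ), (∀ j, t j < u) → b < N →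
    (∑ j ∈ Finset.range N, t j * u ^ j) / u ^ b % u = t b := by
  have key : ∀ (t : ℕ → ℕ) N, ∑ j ∈ Finset.range (N + 1), t j * u ^ j =
      t 0 + u * ∑ j ∈ Finset.range N, t (j + 1) * u ^ j := by
    intro t N
    rw [Finset.sum_range_succ', Finset.mul_sum, add_comm, pow_zero, mul_one]
    congr 1
    exact Finset.sum_congr rfl fun j _ => by ring
  induction b with
  | zero =>
    intro t N ht hN
    obtain ⟨N, rfl⟩ : ∃ M, N = M + 1 := ⟨N - 1, by omega⟩
    rw [key, pow_zero, Nat.div_one, Nat.add_mul_mod_self_left, Nat.mod_eq_of_lt (ht 0)]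
  | succ b ih =>
    intro t N ht hN
    obtain ⟨N, rfl⟩ : ∃ M, N = M + 1 := ⟨N - 1, by omega⟩
    rw [key, pow_succ', ← Nat.div_div_eq_div_mul,
      Nat.add_mul_div_left _ _ (Nat.zero_lt_of_lt (ht 0)), Nat.div_eq_of_lt (ht 0), zero_add]
    exact ih (fun j => t (j + 1)) N (fun j => ht _) (by omega)

theorem choose_eq_digit (a b : ℕ) :
    (2 ^ a + 1 + 1) ^ a / (2 ^ a + 1) ^ b % (2 ^ a + 1) = a.choose b := by
  rw [← digit_sum (u := 2 ^ a + 1) b (fun j => a.choose j) (a + 1 + b)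
    (fun j => Nat.lt_succ_of_le (Nat.choose_le_two_pow a j)) (by omega), add_pow]
  congr 2
  rw [← Finset.sum_subset (Finset.range_mono (show a + 1 ≤ a + 1 + b by omega)) fun j _ hj => by
    rw [Nat.choose_eq_zero_of_lt (by simpa using hj), zero_mul]]
  exact Finset.sum_congr rfl fun j _ => by simp [mul_comm]

@[fun_prop] theorem SFF.choose (hf : SFF f) (hg : SFF g) : SFF fun v => (f v).choose (g v) :=
  SFF.congr (f := fun v => (2 ^ f v + 1 + 1) ^ f v / (2 ^ f v + 1) ^ g v % (2 ^ f v + 1))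
    (by fun_prop) fun _ => choose_eq_digit _ _

theorem factorial_eq_div (Q : ℕ) :
    ((Q + 1) ^ (Q + 3)) ^ Q / ((Q + 1) ^ (Q + 3)).choose Q = Q.factorial := by
  have h0 : (Q.factorial + 1) * Q ^ 2 < (Q + 1) ^ (Q + 3) := by
    rcases Nat.eq_zero_or_pos Q with rfl | hQ
    · simp
    have a1 : Q.factorial ≤ (Q + 1) ^ Q :=
      (Nat.factorial_le_pow Q).trans (Nat.pow_le_pow_left (by omega) _)
    have a2 := Q.factorial_pos
    have a3 : Q ^ 2 < (Q + 1) ^ 2 := Nat.pow_lt_pow_left (by omega) (by norm_num)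
    calc (Q.factorial + 1) * Q ^ 2 < (Q.factorial + 1) * (Q + 1) ^ 2 := by gcongr
      _ ≤ ((Q + 1) * (Q + 1) ^ Q) * (Q + 1) ^ 2 := by gcongr; nlinarith
      _ = _ := by ring
  have h1 : Q < (Q + 1) ^ (Q + 3) :=
    (Nat.lt_succ_self Q).trans_le (Nat.le_self_pow (by omega) _)
  generalize (Q + 1) ^ (Q + 3) = r at *
  have hC : 0 < r.choose Q := Nat.choose_pos h1.le
  have h2 := Nat.descFactorial_le_pow r Q
  have h3 := Nat.pow_sub_le_descFactorial r Q
  rw [Nat.descFactorial_eq_factorial_mul_choose] at h2 h3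
  refine Nat.div_eq_of_lt_le h2 (Nat.lt_of_mul_lt_mul_left (a := Q.factorial) ?_)
  rw [mul_left_comm]
  refine lt_of_lt_of_le ?_ (Nat.mul_le_mul_left _
    ((Nat.pow_le_pow_left (show r - Q ≤ r + 1 - Q by omega) Q).trans h3))
  have hr : (0 : ℝ) < r := by exact_mod_cast Nat.zero_lt_of_lt h1
  have hQ : (Q : ℝ) < r := by exact_mod_cast h1
  have h0' : ((Q.factorial : ℝ) + 1) * Q ^ 2 < r := by exact_mod_cast h0
  have b1 := one_add_mul_le_pow (a := -(Q : ℝ) / r) (by rw [le_div_iff₀ hr]; linarith) Q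
  have e : 1 + -(Q : ℝ) / r = (r - Q) / r := by field_simp; ring
  rw [e, div_pow, le_div_iff₀ (by positivity)] at b1
  have b2 : (Q.factorial : ℝ) < (Q.factorial + 1) * (1 + Q * (-Q / r)) := by
    have : ((Q.factorial : ℝ) + 1) * (1 + Q * (-Q / r)) =
        Q.factorial + (r - (Q.factorial + 1) * Q ^ 2) / r := by field_simp; ring
    rw [this, lt_add_iff_pos_right]
    exact div_pos (by linarith) hr
  have b3 : (Q.factorial : ℝ) * r ^ Q < (Q.factorial + 1) * (r - Q) ^ Q :=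
    calc (Q.factorial : ℝ) * r ^ Q < (Q.factorial + 1) * (1 + Q * (-Q / r)) * r ^ Q := by gcongr
      _ ≤ _ := by rw [mul_assoc]; gcongr
  rw [← Nat.cast_sub h1.le] at b3
  exact_mod_cast b3

@[fun_prop] theorem SFF.factorial (hf : SFF f) : SFF fun v => (f v).factorial :=
  SFF.congr (f := fun v => ((f v + 1) ^ (f v + 3)) ^ f v / ((f v + 1) ^ (f v + 3)).choose (f v))
    (by fun_prop) fun _ => factorial_eq_div _

end Vale.Agent.P345
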