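import Vale.Agent.P345.CurveB
import Vale.Agent.P345.Arith

/-!
A single-fold function of quasi-polynomial growth.
-/

noncomputable section

namespace Vale.Agent.P345

open WeierstrassCurve WeierstrassCurve.Affine WeierstrassCurve.Affine.Point

/-- Multiplicative height of a rational number. -/
def HQ (x : ℚ) : ℕ := max x.num.natAbs x.den

theorem HQ_pos (x : ℚ) : (0 : ℝ) < HQ x := by
  have := x.den_pos
  have : 0 < HQ x := lt_max_of_lt_right this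
  exact_mod_cast this

@[fun_prop] theorem SFF.hq {α : Type} [Cod α] {f : α → ℚ} (hf : SFF f) : SFF fun v => HQ (f v) := by
  unfold HQ; fun_prop

/-- The abscissa of the sum of two points. -/
def addx (p q : ℚ × ℚ) : ℚ :=
  (p.2 - q.2) / (p.1 - q.1) * ((p.2 - q.2) / (p.1 - q.1)) - p.1 - q.1

@[fun_prop] theorem SFF.addx {α : Type} [Cod α] {f : α → ℚ × ℚ} (hf : SFF f) (q : ℚ × ℚ) :
    SFF fun v => addx (f v) q := by
  unfold P345.addx; fun_prop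

/-- The selection rule. -/
def Sel (q₁ q₂ q₃ : ℚ × ℚ) (w : ℕ) (p : ℚ × ℚ) : Prop :=
  p.2 * p.2 = p.1 * p.1 * p.1 - 2 * p.1 ∧ (∃ u : ℚ, 0 < u ∧ p.1 = u * u) ∧
    p.1 ≠ q₁.1 ∧ p.1 ≠ q₂.1 ∧ p.1 ≠ q₃.1 ∧
    HQ (addx p q₂) ≤ w * HQ p.1 ∧ w * HQ (addx p q₁) < HQ (addx p q₃)

theorem sf_sel (q₁ q₂ q₃ : ℚ × ℚ) (w₀ : ℕ) :
    SF fun z : ℕ × (ℚ × ℚ) => Sel q₁ q₂ q₃ (z.1 + w₀) z.2 := by
  refine (SF.eq (by fun_prop) (by fun_prop)).and (SF.and
    (SF.ex ((SF.pos_rat (by fun_prop)).and (SF.eq (by fun_prop) (by fun_prop))) ?_)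
    ((SF.ne_rat (by fun_prop) (by fun_prop)).and ((SF.ne_rat (by fun_prop) (by fun_prop)).and
    ((SF.ne_rat (by fun_prop) (by fun_prop)).and ((SF.le (by fun_prop) (by fun_prop)).and
    (SF.lt (by fun_prop) (by fun_prop)))))))
  rintro a x y ⟨hx, e⟩ ⟨hy, e'⟩
  nlinarith

theorem ht_add {x y : ℚ} {q : ℚ × ℚ} (h : EC.toAffine.Nonsingular x y)
    (hq : EC.toAffine.Nonsingular q.1 q.2) (hx : x ≠ q.1) :
    ht (some x y h + some q.1 q.2 hq) = Real.log (HQ (addx (x, y) q)) := by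
  obtain ⟨y', h', e⟩ := xRep_add h hq hx
  rw [e, ht_some, sq]
  rfl

theorem exists_sel : ∃ (q₁ q₂ q₃ : ℚ × ℚ) (c C : ℝ) (k : ℕ) (w₀ : ℕ), 0 < c ∧ 0 ≤ C ∧ 0 < k ∧
    (∀ w p p', Sel q₁ q₂ q₃ w p → Sel q₁ q₂ q₃ w p' → p = p') ∧
    ∀ w : ℕ, w₀ ≤ w → ∃ p, Sel q₁ q₂ q₃ w p ∧ ∃ n : ℝ, 0 ≤ n ∧
      |Real.log (HQ p.1) - c * n ^ 2| ≤ C ∧ 2 * c * k * n ≤ Real.log w + 2 * C ∧
      Real.log w ≤ 2 * c * k * n + (2 * c * k + c * k ^ 2 + 2 * C) := by
  obtain ⟨P, hinj, hmem, c, C, hc, hC⟩ := exists_gen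
  have hC0 : 0 ≤ C := (abs_nonneg _).trans (hC 0)
  obtain ⟨k, hk⟩ := exists_nat_gt (2 * C / c)
  have hk' : 2 * C < c * k := by rwa [div_lt_iff₀' hc] at hk
  have hk0 : 0 < k := by
    rcases Nat.eq_zero_or_pos k with rfl | h
    · simp at hk'; linarith
    · exact h
  have haff : ∀ j : ℤ, j ≠ 0 → ∃ (q : ℚ × ℚ) (h : EC.toAffine.Nonsingular q.1 q.2),
      j • P = some q.1 q.2 h := by
    intro j hj
    rcases e : j • P with _ | ⟨x, y, h⟩
    · exact absurd (hinj j e) hj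
    · exact ⟨(x, y), h, rfl⟩
  obtain ⟨q₁, h₁, e₁⟩ := haff 1 one_ne_zero
  obtain ⟨q₂, h₂, e₂⟩ := haff k (by omega)
  obtain ⟨q₃, h₃, e₃⟩ := haff (1 + k) (by omega)
  let ρ : ℤ → ℝ := fun n => ht ((n + k) • P) - ht (n • P)
  have hρ : ∀ n : ℤ, |ρ n - c * (2 * n * k + k ^ 2)| ≤ 2 * C := by
    intro n
    have a1 := abs_le.1 (hC (n + k))
    have a2 := abs_le.1 (hC n)
    push_cast at a1
    rw [abs_le]
    simp only [ρ]
    constructor <;> nlinarith [a1.1, a1.2, a2.1, a2.2]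
  have hmono : StrictMono ρ := strictMono_int_of_lt_succ fun n => by
    have a1 := abs_le.1 (hρ (n + 1))
    have a2 := abs_le.1 (hρ n)
    push_cast at a1
    nlinarith [a1.1, a2.2]
  have hsel : ∀ (w : ℕ) (n : ℤ) x y h, n • P = some x y h → x ≠ q₁.1 → x ≠ q₂.1 → x ≠ q₃.1 →
      ((HQ (addx (x, y) q₂) ≤ w * HQ x ∧ w * HQ (addx (x, y) q₁) < HQ (addx (x, y) q₃)) ↔
        0 < w ∧ ρ n ≤ Real.log w ∧ Real.log w < ρ (n + 1)) := by
    intro w n x y h e n1 n2 n3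
    have b0 : ht (n • P) = Real.log (HQ x) := by rw [e, ht_some]; rfl
    have b1 : ht ((n + 1) • P) = Real.log (HQ (addx (x, y) q₁)) := by
      rw [add_zsmul, e, e₁, ht_add h h₁ n1]
    have b2 : ht ((n + k) • P) = Real.log (HQ (addx (x, y) q₂)) := by
      rw [add_zsmul, e, e₂, ht_add h h₂ n2]
    have b3 : ht ((n + 1 + k) • P) = Real.log (HQ (addx (x, y) q₃)) := by
      rw [add_assoc, add_zsmul, e, e₃, ht_add h h₃ n3]
    simp only [ρ, b0, b1, b2, b3]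
    have p0 := HQ_pos x
    have p1 := HQ_pos (addx (x, y) q₁)
    have p2 := HQ_pos (addx (x, y) q₂)
    have p3 := HQ_pos (addx (x, y) q₃)
    rcases Nat.eq_zero_or_pos w with rfl | hw
    · have : 0 < HQ (addx (x, y) q₂) := by exact_mod_cast p2
      simp; omega
    have hw' : (0 : ℝ) < w := by exact_mod_cast hw
    rw [sub_le_iff_le_add, lt_sub_iff_add_lt, ← Real.log_mul hw'.ne' p0.ne',
      ← Real.log_mul hw'.ne' p1.ne', Real.log_le_log_iff p2 (by positivity),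
      Real.log_lt_log_iff (by positivity) p3]
    norm_cast
    simp [hw]
  refine ⟨q₁, q₂, q₃, c, C, k, ⌈Real.exp (ρ (k + 2))⌉₊, hc, hC0, hk0, ?_, ?_⟩
  · rintro w ⟨x, y⟩ ⟨x', y'⟩ ⟨a1, ⟨u, hu, a2⟩, a3, a4, a5, a6⟩ ⟨b1, ⟨u', hu', b2⟩, b3, b4, b5, b6⟩
    have h : EC.toAffine.Nonsingular x y := ns_iff.2 (by linear_combination a1)
    have h' : EC.toAffine.Nonsingular x' y' := ns_iff.2 (by linear_combination b1)
    obtain ⟨n, e⟩ := (hmem x y h).2 ⟨u, hu, by rw [sq]; exact a2⟩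
    obtain ⟨n', e'⟩ := (hmem x' y' h').2 ⟨u', hu', by rw [sq]; exact b2⟩
    obtain ⟨-, c1, c2⟩ := (hsel w n x y h e a3 a4 a5).1 a6
    obtain ⟨-, d1, d2⟩ := (hsel w n' x' y' h' e' b3 b4 b5).1 b6
    have l1 := hmono.lt_iff_lt.1 (c1.trans_lt d2)
    have l2 := hmono.lt_iff_lt.1 (d1.trans_lt c2)
    obtain rfl : n = n' := by omega
    rw [e, some.injEq] at e'
    exact Prod.ext e'.1 e'.2
  · intro w hw
    have hw1 : Real.exp (ρ (k + 2)) ≤ w := Nat.ceil_le.1 hw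
    have hw0 : (0 : ℝ) < w := (Real.exp_pos _).trans_le hw1
    have hw2 : ρ (k + 2) ≤ Real.log w := (Real.le_log_iff_exp_le hw0).2 hw1
    obtain ⟨n, hn1, hn2⟩ := Int.exists_greatest_of_bdd (P := fun n => ρ n ≤ Real.log w)
      ⟨⌈(Real.log w + 2 * C) / (2 * c * k)⌉, fun n hn => by
        have a1 := (abs_le.1 (hρ n)).1
        have hk1 : (0 : ℝ) < k := by exact_mod_cast hk0
        have : (n : ℝ) ≤ (Real.log w + 2 * C) / (2 * c * k) := by
          rw [le_div_iff₀ (by positivity)]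
          nlinarith [mul_pos hc (pow_pos hk1 2)]
        exact_mod_cast this.trans (Int.le_ceil _)⟩ ⟨_, hw2⟩
    have hn3 := hn2 _ hw2
    have hn4 : Real.log w < ρ (n + 1) := by
      by_contra h
      have := hn2 _ (not_lt.1 h)
      omega
    obtain ⟨⟨x, y⟩, h, e⟩ := haff n (by omega)
    have hne : ∀ (j : ℤ) (q : ℚ × ℚ) hq, j • P = some q.1 q.2 hq → 0 < j → j < n → x ≠ q.1 := by
      intro j q hq ej h0 h1 hx
      rcases (X_eq_iff (h₁ := h) (h₂ := hq)).1 hx with e' | e'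
      · have := hinj (n - j) (by rw [sub_zsmul, e, ej, e', add_neg_cancel])
        omega
      · have := hinj (n + j) (by rw [add_zsmul, e, ej, e', neg_add_cancel])
        omega
    have n1 := hne _ _ _ e₁ (by omega) (by omega)
    have n2 := hne _ _ _ e₂ (by omega) (by omega)
    have n3 := hne _ _ _ e₃ (by omega) (by omega)
    obtain ⟨u, hu, eu⟩ := (hmem x y h).1 ⟨n, e⟩
    refine ⟨(x, y), ⟨by linear_combination ns_iff.1 h, ⟨u, hu, by rw [← sq]; exact eu⟩, n1, n2, n3,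
      (hsel w n x y h e n1 n2 n3).2 ⟨by exact_mod_cast hw0, hn1, hn4⟩⟩, n,
      by exact_mod_cast (by omega : 0 ≤ n), ?_, ?_, ?_⟩
    · have := hC n
      rwa [e, ht_some] at this
    · have a1 := (abs_le.1 (hρ n)).1
      nlinarith [mul_nonneg hc.le (sq_nonneg (k : ℝ))]
    · have a1 := (abs_le.1 (hρ (n + 1))).2
      push_cast at a1
      nlinarith

theorem quasi_low {d A C L v t s m l M : ℝ} (hd : 0 < d) (hA : 0 < A) (hC : 0 ≤ C)
    (hL : 2 * A + 8 * d * C + 1 ≤ L) (hs : d * s = t ^ 2) (h1 : s ≤ v + C) (h3 : L ≤ t + A)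
    (hm : m ≤ 2 * L) (hl0 : 0 ≤ l) (hl : l ≤ L) (hM : 16 * d ≤ M) : m * l ≤ M * v := by
  have hdC : 0 ≤ d * C := by positivity
  have b1 : L / 2 ≤ t := by linarith
  have b2 : (L / 2) ^ 2 ≤ t ^ 2 := pow_le_pow_left₀ (by linarith) b1 2
  have b3 : d * s ≤ d * (v + C) := by gcongr
  have b4 : 8 * d * C * 1 ≤ L * L := mul_le_mul (by linarith) (by linarith) (by norm_num) (by linarith)
  have a3 : L ^ 2 ≤ 8 * d * v := by nlinarith
  have hv0 : 0 ≤ v := by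
    by_contra h
    have : 8 * d * v < 0 := mul_neg_of_pos_of_neg (by positivity) (not_le.1 h)
    nlinarith [sq_nonneg L]
  have c1 : m * l ≤ 2 * L * L := mul_le_mul hm hl hl0 (by linarith)
  have c2 : 16 * d * v ≤ M * v := by gcongr
  nlinarith

theorem quasi_up {d C L v t s w w₁ M K : ℝ} (hd : 0 < d) (hC : 0 ≤ C) (hw : 0 ≤ w) (hw₁ : 0 ≤ w₁)
    (hM : 0 ≤ M) (hL : L ≤ w + w₁) (hs : d * s = t ^ 2) (ht : 0 ≤ t) (h1 : v ≤ s + C)
    (h2 : t ≤ L + 2 * C) (hK : 2 * M * ((w₁ + 1 + 2 * C) ^ 2 / d + C) ≤ K) :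
    M * v ≤ K * (w + 1) ^ 2 * (1 / 2) := by
  have a2 : t ≤ (w₁ + 1 + 2 * C) * (w + 1) := by nlinarith [mul_nonneg hw₁ hw, mul_nonneg hC hw]
  have a3 : s ≤ (w₁ + 1 + 2 * C) ^ 2 / d * (w + 1) ^ 2 := by
    rw [div_mul_eq_mul_div, le_div_iff₀' hd, hs, ← mul_pow]
    gcongr
  have a4 : v ≤ ((w₁ + 1 + 2 * C) ^ 2 / d + C) * (w + 1) ^ 2 := by
    have : C ≤ C * (w + 1) ^ 2 := le_mul_of_one_le_right hC (one_le_pow₀ (by linarith))
    linarith
  have b2 : M * v ≤ M * (((w₁ + 1 + 2 * C) ^ 2 / d + C) * (w + 1) ^ 2) := by gcongr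
  have b3 : 2 * M * ((w₁ + 1 + 2 * C) ^ 2 / d + C) * (w + 1) ^ 2 ≤ K * (w + 1) ^ 2 := by gcongr
  linarith

theorem exists_quasi : ∃ F : ℕ → ℕ, SFF F ∧ ∃ K : ℕ, ∀ w,
    (∀ n, 2 ^ n ≤ w → w ^ n ≤ F w) ∧ F w ≤ 2 ^ (K * (w + 1) ^ 2) := by
  obtain ⟨q₁, q₂, q₃, c, C, k, w₀, hc, hC, hk, huniq, hex⟩ := exists_sel
  have hk1 : (0 : ℝ) < k := by exact_mod_cast hk
  obtain ⟨A, hA⟩ : ∃ A, A = 2 * c * k + c * k ^ 2 + 2 * C := ⟨_, rfl⟩
  obtain ⟨d, hd⟩ : ∃ d, d = 4 * c * k ^ 2 := ⟨_, rfl⟩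
  have hd0 : 0 < d := by rw [hd]; positivity
  have hA0 : 0 < A := by rw [hA]; positivity
  rw [← hA] at hex
  obtain ⟨w₁, hw₁⟩ := exists_nat_ge (Real.exp (2 * A + 8 * d * C + 1) + w₀)
  have hw₀ : w₀ ≤ w₁ := by
    have : (w₀ : ℝ) ≤ w₁ := by linarith [Real.exp_pos (2 * A + 8 * d * C + 1)]
    exact_mod_cast this
  choose g hg using fun w => hex (w + w₁) (by omega)
  have hgs : SFF g := (sf_sel q₁ q₂ q₃ w₁).congr fun z =>
    ⟨fun h => huniq _ _ _ h (hg z.1).1, fun h => h ▸ (hg z.1).1⟩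
  obtain ⟨M, hM⟩ := exists_nat_ge (16 * d)
  obtain ⟨K, hK⟩ := exists_nat_ge (2 * M * ((w₁ + 1 + 2 * C) ^ 2 / d + C))
  refine ⟨fun w => HQ (g w).1 ^ M, SFF.pow_const (by fun_prop) M, K, fun w => ?_⟩
  obtain ⟨n, hn0, h1, h2, h3⟩ := (hg w).2
  have hp := HQ_pos (g w).1
  have hw0 : (0 : ℝ) ≤ w := Nat.cast_nonneg w
  have hw₀0 : (0 : ℝ) ≤ w₀ := Nat.cast_nonneg w₀
  have hw₁0 : (0 : ℝ) ≤ w₁ := Nat.cast_nonneg w₁
  have hpos : (0 : ℝ) < ((w + w₁ : ℕ) : ℝ) := by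
    push_cast; linarith [Real.exp_pos (2 * A + 8 * d * C + 1)]
  have hL1 : 2 * A + 8 * d * C + 1 ≤ Real.log ((w + w₁ : ℕ) : ℝ) := by
    rw [Real.le_log_iff_exp_le hpos]; push_cast; linarith
  have hcn : d * (c * n ^ 2) = (2 * c * k * n) ^ 2 := by rw [hd]; ring
  rw [abs_le] at h1
  have l2 := Real.log_two_gt_d9
  constructor
  · intro m hm
    have hw1 : (1 : ℝ) ≤ w := by exact_mod_cast (Nat.one_le_two_pow).trans hm
    have hlw : Real.log w ≤ Real.log ((w + w₁ : ℕ) : ℝ) :=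
      Real.log_le_log (by linarith) (by push_cast; linarith)
    have hm1 : (m : ℝ) ≤ 2 * Real.log ((w + w₁ : ℕ) : ℝ) := by
      have a1 : m * Real.log 2 ≤ Real.log w := by
        rw [← Real.log_pow]
        exact Real.log_le_log (by positivity) (by exact_mod_cast hm)
      have a2 : (m : ℝ) * (1 / 2) ≤ m * Real.log 2 := by gcongr; linarith
      linarith
    have a4 := quasi_low (v := Real.log (HQ (g w).1)) hd0 hA0 hC hL1 hcn (by linarith [h1.1]) h3 hm1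
      (Real.log_nonneg hw1) hlw hM
    rw [← Real.log_pow, ← Real.log_pow, Real.log_le_log_iff (by positivity) (by positivity)] at a4
    exact_mod_cast a4
  · have a1 : Real.log ((w + w₁ : ℕ) : ℝ) ≤ w + w₁ := by
      have := Real.log_le_sub_one_of_pos hpos
      push_cast at this ⊢
      linarith
    have a2 := quasi_up (v := Real.log (HQ (g w).1)) hd0 hC hw0 hw₁0 (Nat.cast_nonneg M) a1 hcn
      (by positivity) (by linarith [h1.2]) h2 hK
    have a5 : M * Real.log (HQ (g w).1) ≤ (K * (w + 1) ^ 2 : ℕ) * Real.log 2 := by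
      refine a2.trans ?_
      push_cast
      gcongr
      linarith
    rw [← Real.log_pow, ← Real.log_pow, Real.log_le_log_iff (by positivity) (by positivity)] at a5
    exact_mod_cast a5

end Vale.Agent.P345
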