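import Vale.Agent.P345.Buq

/-!
Primitive recursive functions and recursively enumerable sets are single-fold.
-/

namespace Vale.Agent.P345

open Finset Cod

theorem digit_ext {B : ℕ} : ∀ (N T T' : ℕ), T < B ^ N → T' < B ^ N →
    (∀ i < N, T / B ^ i % B = T' / B ^ i % B) → T = T' := by
  intro N
  induction N with
  | zero => intro T T' h h' _; simp at h h'; omega
  | succ N ih =>
    intro T T' h h' e
    have e0 := e 0 (by omega)
    rw [pow_zero, Nat.div_one, Nat.div_one] at e0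
    rw [pow_succ'] at h h'
    have e1 := ih (T / B) (T' / B) (Nat.div_lt_of_lt_mul h) (Nat.div_lt_of_lt_mul h') fun i hi => by
      rw [Nat.div_div_eq_div_mul, Nat.div_div_eq_div_mul, ← pow_succ']
      exact e (i + 1) (by omega)
    rw [← Nat.div_add_mod T B, ← Nat.div_add_mod T' B, e0, e1]

theorem digit_lt {B : ℕ} (t : ℕ → ℕ) (ht : ∀ j, t j < B) (N : ℕ) :
    ∑ j ∈ range N, t j * B ^ j < B ^ N := by
  induction N with
  | zero => simp
  | succ N ih =>
    rw [sum_range_succ, pow_succ]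
    have := Nat.mul_le_mul_right (B ^ N) (Nat.succ_le_of_lt (ht N))
    rw [Nat.succ_mul, mul_comm B] at this
    omega

variable {α : Type} [Cod α]

theorem SF.bex {R : α → ℕ → Prop} (h : SF fun p : α × ℕ => R p.1 p.2)
    (h' : SF fun p : α × ℕ => ¬ R p.1 p.2) : SF fun a : α => ∃ i, R a i := by
  classical
  refine (SF.ex (R := fun a i => R a i ∧ ∀ j < i, ¬ R a j)
    (h.and (SF.ball (R := fun a j => ¬ R a j) h')) ?_).congr fun a =>
      ⟨fun ⟨i, hi, _⟩ => ⟨i, hi⟩, fun hi => ⟨Nat.find hi, Nat.find_spec hi,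
        fun j hj => Nat.find_min hi hj⟩⟩
  rintro a i j ⟨h1, h2⟩ ⟨h3, h4⟩
  exact le_antisymm (not_lt.1 fun hc => h2 j hc h3) (not_lt.1 fun hc => h4 i hc h1)

/-- A number codes the course of values of a recursion. -/
def Crs (c : ℕ) (g : ℕ → ℕ → ℕ) (n B T : ℕ) : Prop :=
  T < B ^ (n + 1) ∧ T % B = c ∧ (∀ i < n, T / B ^ (i + 1) % B = g i (T / B ^ i % B)) ∧
    ∃ k, k ≤ n ∧ T / B ^ k % B + 1 = B

theorem Crs.sound {c : ℕ} {g : ℕ → ℕ → ℕ} {n B T : ℕ} (h : Crs c g n B T) :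
    ∀ i ≤ n, T / B ^ i % B = Nat.rec (motive := fun _ => ℕ) c g i := by
  intro i
  induction i with
  | zero => intro _; simpa using h.2.1
  | succ i ih => intro hi; rw [h.2.2.1 i hi, ih (by omega)]

theorem Crs.le {c : ℕ} {g : ℕ → ℕ → ℕ} {n B T B' T' : ℕ} (h : Crs c g n B T)
    (h' : Crs c g n B' T') : B ≤ B' := by
  obtain ⟨k, hk, e⟩ := h.2.2.2
  obtain ⟨k', -, e'⟩ := h'.2.2.2
  have := Nat.mod_lt (T' / B' ^ k) (show B' > 0 by omega)
  rw [h'.sound k hk, ← h.sound k hk] at this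
  omega

theorem exists_crs (c : ℕ) (g : ℕ → ℕ → ℕ) (n : ℕ) : ∃ B T, Crs c g n B T := by
  obtain ⟨k, hk, hmax⟩ := exists_max_image (range (n + 1))
    (fun i => Nat.rec (motive := fun _ => ℕ) c g i) ⟨0, by simp⟩
  set s : ℕ → ℕ := fun i => Nat.rec (motive := fun _ => ℕ) c g i with hs
  let t : ℕ → ℕ := fun j => if j < n + 1 then s j else 0
  have ht : ∀ j, t j < s k + 1 := fun j => by
    simp only [t]
    split_ifs with hj
    · exact Nat.lt_succ_of_le (hmax j (mem_range.2 hj))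
    · omega
  have hd : ∀ i ≤ n, (∑ j ∈ range (n + 1), t j * (s k + 1) ^ j) / (s k + 1) ^ i % (s k + 1) = s i :=
    fun i hi => by rw [digit_sum i t (n + 1) ht (by omega)]; exact if_pos (by omega)
  have hk' : k ≤ n := by have := mem_range.1 hk; omega
  refine ⟨s k + 1, _, digit_lt t ht _, by simpa [hs] using hd 0 (by omega), fun i hi => ?_, k, hk',
    by rw [hd k hk']⟩
  rw [hd _ hi, hd i hi.le]

theorem SFF.nat_rec {f : α → ℕ} {g : α → ℕ → ℕ → ℕ} {m : α → ℕ} (hf : SFF f)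
    (hg : SFF fun p : α × ℕ × ℕ => g p.1 p.2.1 p.2.2) (hm : SFF m) :
    SFF fun a => Nat.rec (motive := fun _ => ℕ) (f a) (g a) (m a) := by
  have h1 : SF fun z : ((α × ℕ) × ℕ × ℕ) × ℕ => z.1.2.2 / z.1.2.1 ^ (z.2 + 1) % z.1.2.1 =
      g z.1.1.1 z.2 (z.1.2.2 / z.1.2.1 ^ z.2 % z.1.2.1) :=
    SF.eq (by fun_prop) (hg.comp (f := fun z : ((α × ℕ) × ℕ × ℕ) × ℕ =>
      (z.1.1.1, z.2, z.1.2.2 / z.1.2.1 ^ z.2 % z.1.2.1)) (by fun_prop))
  have h2 := (SF.ball (R := fun (z : (α × ℕ) × ℕ × ℕ) (i : ℕ) => z.2.2 / z.2.1 ^ (i + 1) % z.2.1 =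
      g z.1.1 i (z.2.2 / z.2.1 ^ i % z.2.1)) h1).comp
      (f := fun z : (α × ℕ) × ℕ × ℕ => (z, m z.1.1)) (by fun_prop)
  have h3 : SF fun z : (α × ℕ) × ℕ × ℕ => ∃ k, k ≤ m z.1.1 ∧ z.2.2 / z.2.1 ^ k % z.2.1 + 1 = z.2.1 :=
    SF.bex ((SF.le (by fun_prop) (by fun_prop)).and (SF.eq (by fun_prop) (by fun_prop)))
      ((SF.or (S := fun z : ((α × ℕ) × ℕ × ℕ) × ℕ => m z.1.1.1 < z.2)
        (T := fun z => z.2 ≤ m z.1.1.1 ∧ z.1.2.2 / z.1.2.1 ^ z.2 % z.1.2.1 + 1 ≠ z.1.2.1)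
        (SF.lt (by fun_prop) (by fun_prop))
        ((SF.le (by fun_prop) (by fun_prop)).and (SF.ne (by fun_prop) (by fun_prop)))
        fun _ a b => by omega).congr fun z => by omega)
  refine (SF.ex (R := fun (p : α × ℕ) (x : ℕ × ℕ) => Crs (f p.1) (g p.1) (m p.1) x.1 x.2 ∧
    p.2 = x.2 / x.1 ^ m p.1 % x.1) (((SF.lt (by fun_prop) (by fun_prop)).and
      ((SF.eq (by fun_prop) (by fun_prop)).and (h2.and h3))).and
      (SF.eq (by fun_prop) (by fun_prop))) ?_).congr fun p => ?_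
  · rintro p ⟨B, T⟩ ⟨B', T'⟩ ⟨h, -⟩ ⟨h', -⟩
    obtain rfl : B = B' := le_antisymm (h.le h') (h'.le h)
    exact Prod.ext rfl (digit_ext _ _ _ h.1 h'.1 fun i hi =>
      (h.sound i (by omega)).trans (h'.sound i (by omega)).symm)
  · constructor
    · rintro ⟨x, h, e⟩
      exact e.trans (h.sound _ le_rfl)
    · intro e
      obtain ⟨B, T, h⟩ := exists_crs (f p.1) (g p.1) (m p.1)
      exact ⟨(B, T), h, e.trans (h.sound _ le_rfl).symm⟩

instance {n : ℕ} : Cod (List.Vector ℕ n) where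
  idx := Fin n
  fin := inferInstance
  enc v := v.get
  inj _ _ h := List.Vector.ext (congrFun h)
  rng := SF0.trivial.congr fun v => ⟨fun _ => ⟨List.Vector.ofFn v, funext
    (List.Vector.get_ofFn v)⟩, fun _ => True.intro⟩

theorem SFF.vget {n : ℕ} {f : α → List.Vector ℕ n} (hf : SFF f) (i : Fin n) :
    SFF fun a => (f a).get i :=
  SFF.comp (g := fun v : List.Vector ℕ n => v.get i)
    (SFF.of_coord (fun _ => i) fun _ _ => rfl) hf

theorem SFF.vec {n : ℕ} {f : α → List.Vector ℕ n} (hf : ∀ i, SFF fun a => (f a).get i) :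
    SFF f :=
  (SFF.comp (g := fun v : Fin n → ℕ => List.Vector.ofFn v)
    (SFF.of_coord (fun i => i) fun v i => List.Vector.get_ofFn v i) (SFF.pi hf)).congr
    fun a => List.Vector.ofFn_get (f a)

theorem SFF.vhead {n : ℕ} {f : α → List.Vector ℕ (n + 1)} (hf : SFF f) :
    SFF fun a => (f a).head := (hf.vget 0).congr fun _ => List.Vector.get_zero _

theorem SFF.vtail {n : ℕ} {f : α → List.Vector ℕ (n + 1)} (hf : SFF f) :
    SFF fun a => ((f a).tail : List.Vector ℕ n) :=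
  SFF.vec fun i => (hf.vget i.succ).congr fun _ => (List.Vector.get_tail_succ _ _).symm

theorem SFF.vcons {n : ℕ} {f : α → ℕ} {g : α → List.Vector ℕ n} (hf : SFF f) (hg : SFF g) :
    SFF fun a => f a ::ᵥ g a :=
  SFF.vec fun i => Fin.cases (hf.congr fun _ => (List.Vector.get_cons_zero _ _).symm)
    (fun i => (hg.vget i).congr fun _ => (List.Vector.get_cons_succ _ _ _).symm) i

theorem sff_primrec' {n : ℕ} {f : List.Vector ℕ n → ℕ} (hf : Nat.Primrec' f) : SFF f := by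
  induction hf with
  | zero => exact SFF.const 0
  | succ => exact SFF.id.vhead.add (SFF.const 1)
  | get i => exact SFF.id.vget i
  | comp g _ _ hf hg =>
    exact hf.comp (SFF.vec fun i => (hg i).congr fun a => (List.Vector.get_ofFn (fun j => g j a) i).symm)
  | @prec n f g _ _ hf hg =>
    exact SFF.nat_rec (g := fun (v : List.Vector ℕ (n + 1)) y IH => g (y ::ᵥ IH ::ᵥ v.tail))
      (hf.comp SFF.id.vtail) (hg.comp (SFF.id.snd.fst.vcons
        (SFF.id.snd.snd.vcons SFF.id.fst.vtail))) SFF.id.vhead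

open Nat.Partrec.Code in
theorem sf_rePred {n : ℕ} {S : (Fin n → ℕ) → Prop} (hS : REPred S) : SF S := by
  obtain ⟨c, hc⟩ := exists_code.1 hS
  obtain ⟨e, he, h3⟩ : ∃ e : (Fin n → ℕ) → ℕ, Primrec e ∧
      ∀ a, (∃ k, (evaln k c (e a)).isSome) ↔ S a := by
    refine ⟨_, Primrec.encode, fun a => ?_⟩
    simp only [Option.isSome_iff_exists]
    rw [exists_comm]
    simp only [← Option.mem_def, ← evaln_complete, hc]
    simp [Part.mem_assert_iff]
  have h1 : Primrec fun v : List.Vector ℕ (n + 1) =>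
      bif (evaln v.head c (e (v.tail : List.Vector ℕ n).get)).isSome then 1 else 0 :=
    Primrec.cond (Primrec.option_isSome.comp (primrec_evaln.comp
      ((Primrec.vector_head.pair (Primrec.const c)).pair
      (he.comp (Primrec.vector_get'.comp Primrec.vector_tail))))) (Primrec.const 1) (Primrec.const 0)
  have h2 : SFF fun p : (Fin n → ℕ) × ℕ => bif (evaln p.2 c (e p.1)).isSome then 1 else 0 :=
    ((sff_primrec' (Nat.Primrec'.of_prim h1)).comp
      (f := fun p : (Fin n → ℕ) × ℕ => p.2 ::ᵥ List.Vector.ofFn p.1) (SFF.id.snd.vcons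
        (SFF.vec fun i => ((SFF.apply i).comp SFF.id.fst).congr
          fun _ => (List.Vector.get_ofFn _ _).symm))).congr fun p => by
      rw [List.Vector.head_cons, List.Vector.tail_cons, funext (List.Vector.get_ofFn p.1)]
  exact (SF.bex (R := fun a k => (evaln k c (e a)).isSome)
    ((SF.eq h2 (SFF.const 1)).congr fun p => by cases (evaln p.2 c (e p.1)).isSome <;> simp)
    ((SF.eq h2 (SFF.const 0)).congr fun p => by
      cases (evaln p.2 c (e p.1)).isSome <;> simp)).congr h3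

end Vale.Agent.P345
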