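import Mathlib

/-!
Single-fold Diophantine predicates and functions: basic closure properties.
-/

namespace Vale.Agent.P345

open MvPolynomial

variable {ι κ : Type}

/-- Integer polynomial functions of natural variables. -/
def PolyFn (f : (ι → ℕ) → ℤ) : Prop :=
  ∃ P : MvPolynomial ι ℤ, ∀ v, f v = eval (fun i => (v i : ℤ)) P

theorem PolyFn.const (c : ℤ) : PolyFn (fun _ : ι → ℕ => c) := ⟨C c, fun _ => by simp⟩

theorem PolyFn.var (i : ι) : PolyFn (fun v : ι → ℕ => (v i : ℤ)) := ⟨X i, fun _ => by simp⟩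

theorem PolyFn.add {f g : (ι → ℕ) → ℤ} (hf : PolyFn f) (hg : PolyFn g) :
    PolyFn (fun v => f v + g v) := by
  obtain ⟨P, hP⟩ := hf
  obtain ⟨Q, hQ⟩ := hg
  exact ⟨P + Q, fun v => by simp [hP, hQ]⟩

theorem PolyFn.sub {f g : (ι → ℕ) → ℤ} (hf : PolyFn f) (hg : PolyFn g) :
    PolyFn (fun v => f v - g v) := by
  obtain ⟨P, hP⟩ := hf
  obtain ⟨Q, hQ⟩ := hg
  exact ⟨P - Q, fun v => by simp [hP, hQ]⟩

theorem PolyFn.mul {f g : (ι → ℕ) → ℤ} (hf : PolyFn f) (hg : PolyFn g) :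
    PolyFn (fun v => f v * g v) := by
  obtain ⟨P, hP⟩ := hf
  obtain ⟨Q, hQ⟩ := hg
  exact ⟨P * Q, fun v => by simp [hP, hQ]⟩

theorem PolyFn.sum {α : Type} (s : Finset α) {f : α → (ι → ℕ) → ℤ} (hf : ∀ a, PolyFn (f a)) :
    PolyFn (fun v => ∑ a ∈ s, f a v) := by
  choose P hP using hf
  exact ⟨∑ a ∈ s, P a, fun v => by simp [hP]⟩

theorem PolyFn.comp {f : (κ → ℕ) → ℤ} (hf : PolyFn f) (e : κ → ι) :
    PolyFn (fun v : ι → ℕ => f (fun k => v (e k))) := by
  obtain ⟨P, hP⟩ := hf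
  exact ⟨rename e P, fun v => by simp only [hP, eval_rename]; rfl⟩

/-- Single-fold Diophantine predicates. -/
def SF0 (S : (ι → ℕ) → Prop) : Prop :=
  ∃ (σ : Type) (_ : Fintype σ) (f : (ι → ℕ) → (σ → ℕ) → ℤ),
    PolyFn (fun z : ι ⊕ σ → ℕ => f (fun i => z (.inl i)) (fun s => z (.inr s))) ∧
    (∀ v, S v ↔ ∃ w, f v w = 0) ∧ ∀ v w w', f v w = 0 → f v w' = 0 → w = w'

theorem SF0.congr {S T : (ι → ℕ) → Prop} (h : SF0 S) (e : ∀ v, S v ↔ T v) : SF0 T := by
  have : S = T := funext fun v => propext (e v)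
  exact this ▸ h

theorem SF0.of_poly {f : (ι → ℕ) → ℤ} (hf : PolyFn f) : SF0 fun v => f v = 0 :=
  ⟨Empty, inferInstance, fun v _ => f v, hf.comp _, fun _ => by simp,
    fun _ _ _ _ _ => Subsingleton.elim _ _⟩

theorem SF0.rename {S : (κ → ℕ) → Prop} (h : SF0 S) (e : κ → ι) :
    SF0 fun v : ι → ℕ => S fun k => v (e k) := by
  obtain ⟨σ, _, f, hf, h1, h2⟩ := h
  exact ⟨σ, inferInstance, fun v w => f (fun k => v (e k)) w, hf.comp (Sum.map e id),
    fun v => h1 _, fun v => h2 _⟩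

theorem SF0.and {S T : (ι → ℕ) → Prop} (hS : SF0 S) (hT : SF0 T) : SF0 fun v => S v ∧ T v := by
  obtain ⟨σ, _, f, hf, h1, h2⟩ := hS
  obtain ⟨τ, _, g, hg, h3, h4⟩ := hT
  have key : ∀ a b : ℤ, a * a + b * b = 0 ↔ a = 0 ∧ b = 0 := fun a b => mul_self_add_mul_self_eq_zero
  refine ⟨σ ⊕ τ, inferInstance, fun v w => f v (fun s => w (.inl s)) * f v (fun s => w (.inl s)) +
    g v (fun s => w (.inr s)) * g v (fun s => w (.inr s)), ?_, fun v => ?_, fun v w w' hw hw' => ?_⟩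
  · exact ((hf.comp (Sum.map id Sum.inl)).mul (hf.comp (Sum.map id Sum.inl))).add
      ((hg.comp (Sum.map id Sum.inr)).mul (hg.comp (Sum.map id Sum.inr)))
  · simp only [key, h1, h3]
    constructor
    · rintro ⟨⟨w, hw⟩, ⟨w', hw'⟩⟩
      exact ⟨Sum.elim w w', hw, hw'⟩
    · rintro ⟨w, hw, hw'⟩
      exact ⟨⟨_, hw⟩, ⟨_, hw'⟩⟩
  · rw [key] at hw hw'
    funext s
    rcases s with s | s
    · exact congrFun (h2 v _ _ hw.1 hw'.1) s
    · exact congrFun (h4 v _ _ hw.2 hw'.2) s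

theorem SF0.or {S T : (ι → ℕ) → Prop} (hS : SF0 S) (hT : SF0 T) (hd : ∀ v, S v → T v → False) :
    SF0 fun v => S v ∨ T v := by
  obtain ⟨σ, _, f, hf, h1, h2⟩ := hS
  obtain ⟨τ, _, g, hg, h3, h4⟩ := hT
  have key : ∀ {α : Type} [Fintype α] (a : ℤ) (w : α → ℕ),
      a * a + ∑ s, (w s : ℤ) = 0 ↔ a = 0 ∧ w = 0 := by
    intro α _ a w
    have h0 : 0 ≤ ∑ s, (w s : ℤ) := by positivity
    rw [add_eq_zero_iff_of_nonneg (mul_self_nonneg a) h0, mul_self_eq_zero,
      Finset.sum_eq_zero_iff_of_nonneg fun _ _ => by positivity]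
    simp [funext_iff]
  refine ⟨σ ⊕ τ, inferInstance, fun v w =>
    (f v (fun s => w (.inl s)) * f v (fun s => w (.inl s)) + ∑ s, (w (.inr s) : ℤ)) *
    (g v (fun s => w (.inr s)) * g v (fun s => w (.inr s)) + ∑ s, (w (.inl s) : ℤ)), ?_,
    fun v => ?_, fun v w w' hw hw' => ?_⟩
  · exact (((hf.comp (Sum.map id Sum.inl)).mul (hf.comp (Sum.map id Sum.inl))).add
      (PolyFn.sum _ fun s => PolyFn.var _)).mul
      (((hg.comp (Sum.map id Sum.inr)).mul (hg.comp (Sum.map id Sum.inr))).add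
      (PolyFn.sum _ fun s => PolyFn.var _))
  · simp only [mul_eq_zero (a := _ + _), key, h1, h3]
    constructor
    · rintro (⟨w, hw⟩ | ⟨w, hw⟩)
      · exact ⟨Sum.elim w 0, Or.inl ⟨hw, rfl⟩⟩
      · exact ⟨Sum.elim 0 w, Or.inr ⟨hw, rfl⟩⟩
    · rintro ⟨w, ⟨hw, -⟩ | ⟨hw, -⟩⟩
      · exact Or.inl ⟨_, hw⟩
      · exact Or.inr ⟨_, hw⟩
  · rw [mul_eq_zero, key, key] at hw hw'
    rcases hw with ⟨a1, a2⟩ | ⟨a1, a2⟩ <;> rcases hw' with ⟨b1, b2⟩ | ⟨b1, b2⟩
    · funext s
      rcases s with s | s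
      · exact congrFun (h2 v _ _ a1 b1) s
      · exact (congrFun a2 s).trans (congrFun b2 s).symm
    · exact (hd v ((h1 v).2 ⟨_, a1⟩) ((h3 v).2 ⟨_, b1⟩)).elim
    · exact (hd v ((h1 v).2 ⟨_, b1⟩) ((h3 v).2 ⟨_, a1⟩)).elim
    · funext s
      rcases s with s | s
      · exact (congrFun a2 s).trans (congrFun b2 s).symm
      · exact congrFun (h4 v _ _ a1 b1) s

theorem SF0.ex [Fintype κ] {R : (ι → ℕ) → (κ → ℕ) → Prop}
    (h : SF0 fun z : ι ⊕ κ → ℕ => R (fun i => z (.inl i)) (fun k => z (.inr k)))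
    (hu : ∀ v x y, R v x → R v y → x = y) : SF0 fun v => ∃ x, R v x := by
  obtain ⟨σ, _, f, hf, h1, h2⟩ := h
  refine ⟨κ ⊕ σ, inferInstance, fun v w => f (Sum.elim v fun k => w (.inl k)) (fun s => w (.inr s)),
    ?_, fun v => ?_, fun v w w' hw hw' => ?_⟩
  · convert hf.comp (Equiv.sumAssoc ι κ σ) using 3 with z
    · funext i
      rcases i with i | i <;> rfl
    · rfl
  · constructor
    · rintro ⟨x, hx⟩
      obtain ⟨w, hw⟩ := (h1 (Sum.elim v x)).1 hx
      exact ⟨Sum.elim x w, hw⟩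
    · rintro ⟨w, hw⟩
      exact ⟨_, (h1 (Sum.elim v fun k => w (.inl k))).2 ⟨_, hw⟩⟩
  · have e : (fun k => w (.inl k)) = fun k => w' (.inl k) :=
      hu v _ _ ((h1 (Sum.elim v fun k => w (.inl k))).2 ⟨_, hw⟩)
        ((h1 (Sum.elim v fun k => w' (.inl k))).2 ⟨_, hw'⟩)
    simp only [e] at hw
    funext s
    rcases s with s | s
    · exact congrFun e s
    · exact congrFun (h2 _ _ _ hw hw') s

theorem SF0.trivial : SF0 fun _ : ι → ℕ => True :=
  (SF0.of_poly (PolyFn.const 0)).congr fun _ => by simp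

theorem SF0.forall_finset {α : Type} (s : Finset α) {S : α → (ι → ℕ) → Prop}
    (h : ∀ a, SF0 (S a)) : SF0 fun v => ∀ a ∈ s, S a v := by
  classical
  induction s using Finset.induction_on with
  | empty => exact SF0.trivial.congr fun _ => by simp
  | insert a s _ ih => exact ((h a).and ih).congr fun _ => by simp

theorem SF0.forall {α : Type} [Fintype α] {S : α → (ι → ℕ) → Prop}
    (h : ∀ a, SF0 (S a)) : SF0 fun v => ∀ a, S a v :=
  (SF0.forall_finset Finset.univ h).congr fun _ => by simp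

theorem SF0.eq_poly {f g : (ι → ℕ) → ℕ} (hf : PolyFn fun v => (f v : ℤ))
    (hg : PolyFn fun v => (g v : ℤ)) : SF0 fun v => f v = g v :=
  (SF0.of_poly (hf.sub hg)).congr fun z => by rw [sub_eq_zero, Nat.cast_inj]

/-- Types coded by tuples of natural numbers, with a single-fold set of codes. -/
class Cod (α : Type) where
  /-- The index set of the tuples. -/
  idx : Type
  fin : Fintype idx
  /-- The code. -/
  enc : α → idx → ℕ
  inj : Function.Injective enc
  rng : SF0 fun v => ∃ a, enc a = v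

attribute [instance_reducible, instance] Cod.fin

open Cod

instance : Cod ℕ where
  idx := Unit
  fin := inferInstance
  enc a _ := a
  inj _ _ h := congrFun h ()
  rng := SF0.trivial.congr fun v => ⟨fun _ => ⟨v (), rfl⟩, fun _ => True.intro⟩

instance [Fintype ι] : Cod (ι → ℕ) where
  idx := ι
  fin := inferInstance
  enc a := a
  inj _ _ h := h
  rng := SF0.trivial.congr fun v => ⟨fun _ => ⟨v, rfl⟩, fun _ => True.intro⟩

variable {α β γ : Type} [Cod α] [Cod β] [Cod γ]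

instance : Cod (α × β) where
  idx := idx α ⊕ idx β
  fin := inferInstance
  enc p := Sum.elim (enc p.1) (enc p.2)
  inj p q h := Prod.ext (inj (funext fun i => congrFun h (.inl i)))
    (inj (funext fun i => congrFun h (.inr i)))
  rng := ((rng.rename Sum.inl).and (rng.rename Sum.inr)).congr fun v => by
    constructor
    · rintro ⟨⟨a, ha⟩, ⟨b, hb⟩⟩
      refine ⟨(a, b), funext fun i => ?_⟩
      rcases i with i | i
      · exact congrFun ha i
      · exact congrFun hb i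
    · rintro ⟨p, rfl⟩
      exact ⟨⟨p.1, rfl⟩, ⟨p.2, rfl⟩⟩

/-- Single-fold predicates on coded types. -/
def SF (S : α → Prop) : Prop := SF0 fun v => ∃ a, enc a = v ∧ S a

/-- Functions with a single-fold graph. -/
@[fun_prop] def SFF (f : α → β) : Prop := SF fun p : α × β => p.2 = f p.1

theorem SF.congr {S T : α → Prop} (h : SF S) (e : ∀ v, S v ↔ T v) : SF T := by
  have : S = T := funext fun v => propext (e v)
  exact this ▸ h

theorem SF.of0 {S : α → Prop} {T : (idx α → ℕ) → Prop} (h : SF0 T) (e : ∀ a, T (enc a) ↔ S a) :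
    SF S := (rng.and h).congr fun v => by
  constructor
  · rintro ⟨⟨a, rfl⟩, ha⟩
    exact ⟨a, rfl, (e a).1 ha⟩
  · rintro ⟨a, rfl, ha⟩
    exact ⟨⟨a, rfl⟩, (e a).2 ha⟩

theorem enc_iff {S : α → Prop} (a : α) : (∃ b, enc b = enc a ∧ S b) ↔ S a :=
  ⟨fun ⟨_, h, hb⟩ => inj h ▸ hb, fun h => ⟨a, rfl, h⟩⟩

theorem SF.trivial : SF fun _ : α => True := SF.of0 SF0.trivial fun _ => Iff.rfl

theorem SF.and {S T : α → Prop} (hS : SF S) (hT : SF T) : SF fun v => S v ∧ T v :=
  SF.of0 (SF0.and hS hT) fun a => by rw [enc_iff, enc_iff]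

theorem SF.or {S T : α → Prop} (hS : SF S) (hT : SF T) (hd : ∀ v, S v → T v → False) :
    SF fun v => S v ∨ T v :=
  SF.of0 (SF0.or hS hT fun _ ⟨a, ha, h⟩ ⟨_, hb, h'⟩ => hd a h (inj (hb.trans ha.symm) ▸ h'))
    fun a => by rw [enc_iff, enc_iff]

theorem SF.forall {δ : Type} [Fintype δ] {S : δ → α → Prop} (h : ∀ d, SF (S d)) :
    SF fun v => ∀ d, S d v :=
  SF.of0 (SF0.forall h) fun a => by simp only [enc_iff]

theorem SF.comap {S : β → Prop} (h : SF S) (φ : α → β) (e : idx β → idx α)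
    (he : ∀ a i, enc (φ a) i = enc a (e i)) : SF fun a => S (φ a) :=
  SF.of0 (SF0.rename h e) fun a => by
    rw [show (fun k => enc a (e k)) = enc (φ a) from funext fun k => (he a k).symm, enc_iff]

theorem SF.ex {R : α → β → Prop} (h : SF fun p : α × β => R p.1 p.2)
    (hu : ∀ a x y, R a x → R a y → x = y) : SF fun a => ∃ x, R a x := by
  refine SF.of0 (SF0.ex (R := fun v x => ∃ p : α × β, enc p = Sum.elim v x ∧ R p.1 p.2)
    (SF0.congr h fun z => ?_) ?_) fun a => ?_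
  · rw [show Sum.elim (fun i => z (.inl i)) (fun k => z (.inr k)) = z from
      funext fun i => by rcases i with i | i <;> rfl]
  · rintro v x y ⟨p, hp, hR⟩ ⟨q, hq, hR'⟩
    have e1 : p.1 = q.1 := inj (funext fun i =>
      (congrFun hp (.inl i)).trans (congrFun hq (.inl i)).symm)
    have e2 := hu _ _ _ hR (e1 ▸ hR')
    exact funext fun i => (congrFun hp (.inr i)).symm.trans
      ((congrFun (congrArg enc e2) i).trans (congrFun hq (.inr i)))
  · constructor
    · rintro ⟨x, p, hp, hR⟩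
      have e1 : p.1 = a := inj (funext fun i => congrFun hp (.inl i))
      exact ⟨p.2, e1 ▸ hR⟩
    · rintro ⟨x, hx⟩
      exact ⟨enc x, (a, x), rfl, hx⟩

theorem SFF.of_poly {f : α → β}
    (hf : ∀ i, ∃ g : (idx α → ℕ) → ℕ, PolyFn (fun v => (g v : ℤ)) ∧ ∀ a, enc (f a) i = g (enc a)) :
    SFF f := by
  choose g hg he using hf
  refine SF.of0 (SF0.forall fun i => SF0.eq_poly (PolyFn.var (Sum.inr i))
    ((hg i).comp Sum.inl)) fun p => ⟨fun h => inj (funext fun i => (h i).trans (he i p.1).symm),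
      fun h i => ?_⟩
  exact (congrFun (congrArg enc h) i).trans (he i p.1)

theorem SFF.of_coord {f : α → β} (e : idx β → idx α) (he : ∀ a i, enc (f a) i = enc a (e i)) :
    SFF f := SFF.of_poly fun i => ⟨fun v => v (e i), PolyFn.var _, fun a => he a i⟩

theorem SF.comp {S : β → Prop} (hS : SF S) {f : α → β} (hf : SFF f) : SF fun a => S (f a) :=
  (SF.ex (R := fun a b => b = f a ∧ S b) (SF.and hf (hS.comap Prod.snd Sum.inr fun _ _ => rfl))
    fun _ _ _ hx hy => hx.1.trans hy.1.symm).congr fun _ => by simp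

@[fun_prop] theorem SFF.id : SFF fun a : α => a := SFF.of_coord (fun i => i) fun _ _ => rfl

@[fun_prop] theorem SFF.const (b : β) : SFF fun _ : α => b :=
  SFF.of_poly fun i => ⟨fun _ => enc b i, PolyFn.const _, fun _ => rfl⟩

@[fun_prop] theorem SFF.prodMk {f : α → β} {g : α → γ} (hf : SFF f) (hg : SFF g) :
    SFF fun a => (f a, g a) :=
  (SF.and (SF.comap hf (fun q : α × β × γ => (q.1, q.2.1)) (Sum.map (fun i => i) Sum.inl)
      fun _ i => by rcases i with i | i <;> rfl)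
    (SF.comap hg (fun q : α × β × γ => (q.1, q.2.2)) (Sum.map (fun i => i) Sum.inr)
      fun _ i => by rcases i with i | i <;> rfl)).congr fun q =>
    (Prod.ext_iff (x := q.2) (y := (f q.1, g q.1))).symm

@[fun_prop] theorem SFF.comp {g : β → γ} {f : α → β} (hg : SFF g) (hf : SFF f) :
    SFF fun a => g (f a) :=
  SF.comp hg (f := fun p : α × γ => (f p.1, p.2)) (SFF.prodMk
    (SF.comap hf (fun q : (α × γ) × β => (q.1.1, q.2)) (Sum.map Sum.inl fun i => i)
      fun _ i => by rcases i with i | i <;> rfl)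
    (SFF.of_coord Sum.inr fun _ _ => rfl))

@[fun_prop] theorem SFF.fst {f : α → β × γ} (hf : SFF f) : SFF fun a => (f a).1 :=
  SFF.comp (g := Prod.fst) (SFF.of_coord Sum.inl fun _ _ => rfl) hf

@[fun_prop] theorem SFF.snd {f : α → β × γ} (hf : SFF f) : SFF fun a => (f a).2 :=
  SFF.comp (g := Prod.snd) (SFF.of_coord Sum.inr fun _ _ => rfl) hf

@[fun_prop] theorem SFF.apply [Fintype ι] (i : ι) : SFF fun v : ι → ℕ => v i :=
  SFF.of_coord (fun _ => i) fun _ _ => rfl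

@[fun_prop] theorem SFF.pi [Fintype ι] {f : α → ι → ℕ} (hf : ∀ i, SFF fun a => f a i) :
    SFF fun a i => f a i :=
  (SF.forall fun i => SF.comap (hf i) (fun q : α × (ι → ℕ) => (q.1, q.2 i))
    (Sum.map (fun j => j) fun _ => i) fun _ j => by rcases j with j | j <;> rfl).congr
    fun _ => funext_iff.symm

theorem SFF.congr {f g : α → β} (h : SFF f) (e : ∀ v, f v = g v) : SFF g :=
  (funext e : f = g) ▸ h

theorem SF.eq {f g : α → β} (hf : SFF f) (hg : SFF g) : SF fun a => f a = g a :=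
  SF.comp (S := fun p : β × β => p.2 = p.1) SFF.id (hg.prodMk hf)

end Vale.Agent.P345
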